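import Vale.Agent.P019.Z.Act

/-!
P019 Z/Jac: divisor classes modulo a base point. Helper lemmas start with `jac_`.
Plan. jac ker: by `AddSubgroup.closure_induction` every member of `Jh P₀` is `dv f + n • single P₀ 1`
(`dv_mul`, `dv f⁻¹ = - dv f`, `dv 1 = 0`); the degree gives `n = 0`. exists_tau: `QuotientAddGroup.map`,
`AddMonoidHom.toIntLinearMap`, `Act.dv`.
unr_card: let `r v c` say `∃ f D, f ≠ 0 ∧ cl ℓ f = v ∧ dv f = ℓ • D ∧ pj D = c`. Every `v ∈ Unr` has a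
partner killed by `ℓ` (`cl_surj`, `cv_exists_pt`, `ZMod.intCast_zmod_eq_zero_iff_dvd`,
`D = Finsupp.mapRange (· / ℓ)`), every `c` with `ℓ • c = 0` has a partner in `Unr` (exists_rep with
degree zero, pj_eq_zero), and for partners `v = v' ↔ c = c'` (`cl_eq_iff`, `dv_eq_zero_iff`,
`cl_algebraMap`, divisors are torsion free). Choose the map; `Set.BijOn`, `Set.ncard_congr`.
-/

namespace P019.Z

variable {κ F : Type*} [Field κ] [Field F] [Algebra κ F]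

/-- principal divisors and multiples of the base point -/
noncomputable def Jh (P₀ : Place κ F) : AddSubgroup (Dvs κ F) :=
  AddSubgroup.closure ({D | ∃ f, f ≠ 0 ∧ D = dv κ f} ∪ {Finsupp.single P₀ 1})

/-- the group of classes -/
abbrev Jc (P₀ : Place κ F) : Type _ := Dvs κ F ⧸ Jh P₀

/-- the class of a divisor -/
noncomputable def pj (P₀ : Place κ F) : Dvs κ F →+ Jc P₀ := QuotientAddGroup.mk' (Jh P₀)

variable {P₀ : Place κ F}

theorem pj_single (n : ℤ) : pj P₀ (Finsupp.single P₀ n) = 0 := by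
  refine (QuotientAddGroup.eq_zero_iff _).2 ?_
  have : (Finsupp.single P₀ n : Dvs κ F) = n • Finsupp.single P₀ 1 := by simp
  rw [this]
  exact (Jh P₀).zsmul_mem (AddSubgroup.subset_closure (Or.inr rfl)) n

theorem pj_dv {f : F} (hf : f ≠ 0) : pj P₀ (dv κ f) = 0 := by
  exact (QuotientAddGroup.eq_zero_iff _).2 (AddSubgroup.subset_closure (Or.inl ⟨f, hf, rfl⟩))

theorem exists_rep (c : Jc P₀) (n : ℤ) : ∃ D, pj P₀ D = c ∧ ddeg D = n := by
  obtain ⟨D, rfl⟩ := QuotientAddGroup.mk'_surjective _ c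
  refine ⟨D + Finsupp.single P₀ (n - ddeg D), ?_, ?_⟩
  · rw [map_add, pj_single, add_zero]; rfl
  · rw [map_add, ddeg_single, add_sub_cancel]

variable [IsAlgClosed κ]

theorem jac_one (h : IsFF κ F 1) : dv κ (1 : F) = 0 :=
  (dv_eq_zero_iff h one_ne_zero).2 ⟨1, (map_one _).symm⟩

theorem jac_pow (h : IsFF κ F 1) {f : F} (hf : f ≠ 0) (n : ℕ) : dv κ (f ^ n) = n • dv κ f := by
  induction n with
  | zero => rw [pow_zero, jac_one h, zero_smul]
  | succ n ih => rw [pow_succ, dv_mul h (pow_ne_zero n hf) hf, ih, succ_nsmul]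

theorem jac_ker (h : IsFF κ F 1) {D : Dvs κ F} (hD : D ∈ Jh P₀) :
    ∃ (f : F) (n : ℤ), f ≠ 0 ∧ D = dv κ f + Finsupp.single P₀ n := by
  induction hD using AddSubgroup.closure_induction with
  | mem D hD =>
    rcases hD with ⟨f, hf, rfl⟩ | rfl
    · exact ⟨f, 0, hf, by simp⟩
    · exact ⟨1, 1, one_ne_zero, by rw [jac_one h, zero_add]⟩
  | zero => exact ⟨1, 0, one_ne_zero, by simp [jac_one h]⟩
  | add D E _ _ h1 h2 =>
    obtain ⟨f, n, hf, rfl⟩ := h1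
    obtain ⟨g, m, hg, rfl⟩ := h2
    exact ⟨f * g, n + m, mul_ne_zero hf hg, by rw [dv_mul h hf hg, Finsupp.single_add]; abel⟩
  | neg D _ h1 =>
    obtain ⟨f, n, hf, rfl⟩ := h1
    exact ⟨f⁻¹, -n, inv_ne_zero hf, by rw [cvd_inv h, Finsupp.single_neg]; abel⟩

theorem pj_eq (h : IsFF κ F 1) {D D' : Dvs κ F} (hd : ddeg D = ddeg D')
    (e : pj P₀ D = pj P₀ D') : ∃ f, f ≠ 0 ∧ D = D' + dv κ f := by
  obtain ⟨f, n, hf, h1⟩ := jac_ker h ((QuotientAddGroup.eq_zero_iff (D - D')).1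
    (show pj P₀ (D - D') = 0 by rw [map_sub, e, sub_self]))
  have h2 := congrArg ddeg h1
  rw [map_sub, hd, sub_self, map_add, ddeg_dv h, ddeg_single, zero_add] at h2
  rw [← h2, Finsupp.single_zero, add_zero] at h1
  exact ⟨f, hf, by rw [← h1, add_sub_cancel]⟩

theorem exists_tau (h : IsFF κ F 1) {ψ : RingAut F} {σ : Equiv.Perm (Place κ F)} (hσ : Act ψ σ)
    (hP : σ P₀ = P₀) :
    ∃ τ : Module.End ℤ (Jc P₀), ∀ D, pj P₀ (sD σ D) = τ (pj P₀ D) := by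
  refine ⟨(QuotientAddGroup.map (Jh P₀) (Jh P₀) (sD σ) fun D hD => ?_).toIntLinearMap,
    fun D => rfl⟩
  obtain ⟨f, n, hf, rfl⟩ := jac_ker h hD
  refine AddSubgroup.mem_comap.2 ((QuotientAddGroup.eq_zero_iff _).1 (show pj P₀ _ = 0 from ?_))
  rw [map_add, sD_single, hP, ← hσ.dv h, map_add, pj_single,
    pj_dv ((map_ne_zero ψ).2 hf), add_zero]

theorem unr_card {ℓ : ℕ} [Fact ℓ.Prime] (h : IsFF κ F 1) (P₀ : Place κ F)
    (hf : {y : Jc P₀ | ℓ • y = 0}.Finite) :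
    (Unr ℓ κ F).Finite ∧ (Unr ℓ κ F).ncard = {y : Jc P₀ | ℓ • y = 0}.ncard := by
  have hl : ℓ ≠ 0 := (Fact.out : ℓ.Prime).ne_zero
  have tf : ∀ {D D' : Dvs κ F}, ℓ • D = ℓ • D' → D = D' := fun e => Finsupp.ext fun P => by
    have := DFunLike.congr_fun e P
    rw [Finsupp.smul_apply, Finsupp.smul_apply, nsmul_eq_mul, nsmul_eq_mul] at this
    exact mul_left_cancel₀ (Nat.cast_ne_zero.2 hl) this
  obtain ⟨r, hr⟩ : ∃ r : V ℓ F → Jc P₀ → Prop, ∀ v c, r v c ↔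
      ∃ f D, f ≠ 0 ∧ cl ℓ f = v ∧ dv κ f = ℓ • D ∧ pj P₀ D = c := ⟨_, fun _ _ => Iff.rfl⟩
  have r1 : ∀ v ∈ Unr ℓ κ F, ∃ c, r v c := by
    intro v hv
    obtain ⟨f, hf0, rfl⟩ := cl_surj v
    refine ⟨_, (hr _ _).2 ⟨f, (dv κ f).mapRange (· / (ℓ : ℤ)) (Int.zero_ediv _), hf0, rfl,
      Finsupp.ext fun P => ?_, rfl⟩⟩
    obtain ⟨σ, hσ⟩ := cv_exists_pt (ℓ := ℓ) h P
    have a := hv P σ hσ
    rw [hσ f, ZMod.intCast_zmod_eq_zero_iff_dvd, ← dv_apply h] at a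
    rw [Finsupp.smul_apply, Finsupp.mapRange_apply, nsmul_eq_mul, Int.mul_ediv_cancel' a]
  have r2 : ∀ v c, r v c → v ∈ Unr ℓ κ F ∧ ℓ • c = 0 := by
    intro v c hvc
    obtain ⟨f, D, hf0, rfl, e, rfl⟩ := (hr _ _).1 hvc
    refine ⟨fun P σ hσ => ?_, by rw [← map_nsmul, ← e, pj_dv hf0]⟩
    rw [hσ f, ← dv_apply h, e, Finsupp.smul_apply, nsmul_eq_mul]
    simp
  have r3 : ∀ c : Jc P₀, ℓ • c = 0 → ∃ v, r v c := by
    intro c hc
    obtain ⟨D, rfl, hD⟩ := exists_rep c 0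
    obtain ⟨f, hf0, e⟩ := pj_eq (P₀ := P₀) h (D := ℓ • D) (D' := 0)
      (by rw [map_nsmul, hD, map_zero, smul_zero]) (by rw [map_nsmul, hc, map_zero])
    exact ⟨_, (hr _ _).2 ⟨f, D, hf0, rfl, by rw [e, zero_add], rfl⟩⟩
  have r4 : ∀ v c v' c', r v c → r v' c' → (v = v' ↔ c = c') := by
    intro v c v' c' h1 h2
    obtain ⟨f, D, hf0, rfl, e, rfl⟩ := (hr _ _).1 h1
    obtain ⟨f', D', hf0', rfl, e', rfl⟩ := (hr _ _).1 h2
    constructor
    · intro hv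
      obtain ⟨g, hg, rfl⟩ := (cl_eq_iff hf0 hf0').1 hv
      rw [dv_mul h hf0' (pow_ne_zero _ hg), jac_pow h hg, e', ← smul_add] at e
      rw [← tf e, map_add, pj_dv hg, add_zero]
    · intro hc
      have d : ∀ {f : F} {D : Dvs κ F}, dv κ f = ℓ • D → ddeg D = 0 := fun {f D} e => by
        have := ddeg_dv h f
        rw [e, map_nsmul, nsmul_eq_mul] at this
        exact (mul_eq_zero.1 this).resolve_left (Nat.cast_ne_zero.2 hl)
      obtain ⟨g, hg, rfl⟩ := pj_eq h ((d e).trans (d e').symm) hc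
      have hb := mul_ne_zero hf0' (pow_ne_zero ℓ hg)
      obtain ⟨a, ha⟩ := (dv_eq_zero_iff h (mul_ne_zero hf0 (inv_ne_zero hb))).1 (by
        rw [dv_mul h hf0 (inv_ne_zero hb), cvd_inv h, dv_mul h hf0' (pow_ne_zero ℓ hg),
          jac_pow h hg, e, e', smul_add, add_neg_cancel])
      have b := congrArg (cl ℓ) ha
      rw [cl_algebraMap, cl_mul hf0 (inv_ne_zero hb), cl_inv, add_neg_eq_zero] at b
      exact b.trans ((cl_eq_iff hb hf0').2 ⟨g, hg, rfl⟩)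
  choose! φ hφ using r1
  have hi : Set.InjOn φ (Unr ℓ κ F) := fun v hv v' hv' e =>
    (r4 _ _ _ _ (hφ v hv) (hφ v' hv')).2 e
  have him : φ '' Unr ℓ κ F = {y : Jc P₀ | ℓ • y = 0} := by
    refine Set.Subset.antisymm ?_ fun c hc => ?_
    · rintro _ ⟨v, hv, rfl⟩
      exact (r2 _ _ (hφ v hv)).2
    · obtain ⟨v, hv⟩ := r3 c hc
      exact ⟨v, (r2 _ _ hv).1, (r4 _ _ _ _ (hφ v (r2 _ _ hv).1) hv).1 rfl⟩
  exact ⟨Set.Finite.of_finite_image (him ▸ hf) hi, by rw [← him, hi.ncard_image]⟩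

end P019.Z
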