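import Vale.Agent.P019.Z.Cnt
import Vale.Agent.P019.Z.Jac

/-!
P019 Z/Brg: a Frobenius datum gives a zeta datum. Helper lemmas start with `brg_`.
Plan. md lemmas: `Multiset.induction_on`; md_surj: `Finsupp.toMultiset (D.mapRange Int.toNat _)`.
ec_count: `exists_rep`, `pj_eq` (degrees by `ddeg_sD`) and `fixed_rep` give a fixed divisor `D` of degree
`n` in the class `c`; `md` maps `Ec σ p n c` bijectively onto the set of `eff_count`
(`Set.ncard_image_of_injective`; `pj_eq`, `pj_dv`, `ddeg_dv`).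
zd_of_frob: `ldim D` from `hRR D`: `ldim_neg` if `ddeg (W - D) < 0` (`IsRR.deg`); in degree zero
`ldim (W - D)` is `1` if the class of `D` is the class of `W` (`pj_eq`, `ldim_add_dv`, `ldim_zero`) and
`0` otherwise (`ldim_deg_zero`, `pj_dv`). fin: `Act.fin` for `Frob.pow`, `Act.pow`.
-/

namespace P019.Z

section
variable {Y : Type*}

theorem brg_cons (P : Y) (E : Multiset Y) : md (P ::ₘ E) = Finsupp.single P 1 + md E := by
  rw [md, Multiset.map_cons, Multiset.sum_cons, md]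

theorem md_apply [DecidableEq Y] (E : Multiset Y) (P : Y) : md E P = E.count P := by
  induction E using Multiset.induction_on with
  | empty => simp [md]
  | cons a E ih =>
    rw [brg_cons, Finsupp.add_apply, ih, Multiset.count_cons, Finsupp.single_apply, add_comm]
    simp [eq_comm]

theorem md_inj : Function.Injective (md : Multiset Y → Y →₀ ℤ) := by
  classical
  intro E E' e
  ext P
  have := md_apply E P
  rw [e, md_apply] at this
  exact_mod_cast this.symm

theorem md_nonneg (E : Multiset Y) : 0 ≤ md E := by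
  classical
  intro P
  rw [md_apply]
  exact Nat.cast_nonneg _

theorem md_surj {D : Y →₀ ℤ} (h : 0 ≤ D) : ∃ E, md E = D := by
  classical
  refine ⟨Finsupp.toMultiset (D.mapRange Int.toNat rfl), Finsupp.ext fun P => ?_⟩
  rw [md_apply, Finsupp.count_toMultiset, Finsupp.mapRange_apply]
  exact Int.toNat_of_nonneg (h P)

theorem md_map (σ : Equiv.Perm Y) (E : Multiset Y) : md (E.map σ) = sD σ (md E) := by
  induction E using Multiset.induction_on with
  | empty => simp [md]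
  | cons a E ih => rw [Multiset.map_cons, brg_cons, brg_cons, map_add, ih, sD_single]

theorem map_md {J : Type*} [AddCommGroup J] (π : (Y →₀ ℤ) →+ J) (E : Multiset Y) :
    π (md E) = (E.map fun P => π (Finsupp.single P 1)).sum := by
  rw [md, map_multiset_sum, Multiset.map_map]
  rfl

end

variable {κ F : Type*} [Field κ] [Field F] [Algebra κ F] [IsAlgClosed κ] {ψ : RingAut F} {q : ℕ}
  {σ : Equiv.Perm (Place κ F)} {P₀ : Place κ F} {τ : Module.End ℤ (Jc P₀)}

omit [IsAlgClosed κ] in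
theorem brg_deg (E : Multiset (Place κ F)) : ddeg (md E : Dvs κ F) = E.card := by
  rw [map_md]
  simp [ddeg_single]

theorem ec_count (h : IsFF κ F 1) (hψ : Frob κ ψ q) (hσ : Act ψ σ)
    (hτ : ∀ D, pj P₀ (sD σ D) = τ (pj P₀ D)) (n : ℕ) {c : Jc P₀} (hc : τ c = c) :
    ∃ D : Dvs κ F, ddeg D = n ∧ pj P₀ D = c ∧
      (Ec σ (fun P => pj P₀ (Finsupp.single P 1)) n c).ncard * (q - 1) + 1 = q ^ ldim D := by
  obtain ⟨D0, h1, h2⟩ := exists_rep c n
  obtain ⟨f, hf, e⟩ := pj_eq h (ddeg_sD σ D0) (by rw [hτ, h1, hc])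
  obtain ⟨u, hu, hD⟩ := fixed_rep h hψ hσ hf e
  have h3 : ddeg (D0 + dv κ u) = n := by rw [map_add, ddeg_dv h, add_zero, h2]
  have h4 : pj P₀ (D0 + dv κ u) = c := by rw [map_add, pj_dv hu, add_zero, h1]
  refine ⟨_, h3, h4, ?_⟩
  rw [← eff_count h hψ hσ hD, ← Set.ncard_image_of_injective _ md_inj]
  congr 3
  ext E
  constructor
  · rintro ⟨E, ⟨⟨a1, a2⟩, a3⟩, rfl⟩
    exact ⟨md_nonneg E, by rw [← md_map, a1], pj_eq h (by rw [brg_deg, a2, h3])
      (by rw [map_md, a3, h4])⟩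
  · rintro ⟨a1, a2, f, hf, a3⟩
    obtain ⟨E, rfl⟩ := md_surj a1
    refine ⟨E, ⟨⟨md_inj (by rw [md_map, a2]), ?_⟩, ?_⟩, rfl⟩
    · have := brg_deg E
      rw [a3, map_add, ddeg_dv h, add_zero, h3] at this
      exact_mod_cast this.symm
    · rw [← map_md, a3, map_add, pj_dv hf, add_zero, h4]

theorem zd_of_frob (h : IsFF κ F 1) (hψ : Frob κ ψ q) (hσ : Act ψ σ)
    (hτ : ∀ D, pj P₀ (sD σ D) = τ (pj P₀ D)) {g : ℕ} {W : Dvs κ F} (hRR : IsRR g W)
    (hW : sD σ W = W) : Zd σ τ (fun P => pj P₀ (Finsupp.single P 1)) q g (pj P₀ W) := by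
  have hd := (hRR.deg h).1
  have key : ∀ c, τ c = c → 1 ≤ g → ∃ D : Dvs κ F, ddeg D = ddeg W ∧ pj P₀ D = c ∧
      ldim D + 1 = g + ldim (W - D) ∧
      (Ec σ (fun P => pj P₀ (Finsupp.single P 1)) (2 * g - 2) c).ncard * (q - 1) + 1 =
        q ^ ldim D := fun c hc hg => by
    obtain ⟨D, h1, h2, h3⟩ := ec_count h hψ hσ hτ (2 * g - 2) hc
    have := hRR D
    exact ⟨D, by omega, h2, by omega, h3⟩
  refine ⟨hψ.one_lt, fun P => by rw [← hτ, sD_single],
    fun s hs => Act.fin h (hψ.pow hs) (hσ.pow s), by rw [← hτ, hW], fun n c hc hn => ?_,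
    fun c hc hg hne => ?_, fun hg => ?_⟩
  · obtain ⟨D, h1, -, h3⟩ := ec_count h hψ hσ hτ n hc
    have h4 := hRR D
    rw [ldim_neg h (W - D) (by rw [map_sub]; omega)] at h4
    rw [h3]
    congr 1
    omega
  · obtain ⟨D, h1, h2, h3, h4⟩ := key c hc hg
    have h5 : ldim (W - D) = 0 := by
      by_contra h6
      obtain ⟨f, hf, e⟩ := ldim_deg_zero h _ (by rw [map_sub, h1, sub_self]) h6
      have := pj_dv (P₀ := P₀) hf
      rw [← e, map_sub, h2, sub_eq_zero] at this
      exact hne this.symm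
    rw [h4]
    congr 1
    omega
  · obtain ⟨D, h1, h2, h3, h4⟩ := key _ (by rw [← hτ, hW]) hg
    obtain ⟨f, hf, e⟩ := pj_eq h h1.symm h2.symm
    have h5 : ldim (W - D) = 1 := by
      rw [e, add_sub_cancel_left, ← zero_add (dv κ f), ldim_add_dv h _ hf, ldim_zero h]
    rw [h4]
    congr 1
    omega

end P019.Z
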