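import Vale.Agent.P019.Z.Defs

/-!
P019 Z/Alg: congruences for algebraic integers. Helper lemmas start with `alg_`.
Plan. alg_pow: `B = Algebra.adjoin ℤ {a}` is a finite `ℤ`-module, so `B / N B` is finite (a finitely
generated module over `ZMod N`, or: the remainders of `X ^ i` modulo a monic integer polynomial
killing `a` take finitely many values in `(ZMod N)[X]`); so `a ^ i * (a ^ m - 1) = N y`. Multiply by
`b ^ i` and use Bezout for `Q ^ i` and `N`. exists_m0: `b` is the product of the other members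
(`Multiset.prod_erase`, `IsIntegral.multiset_prod`), take the product of the exponents;
`(1 + N y) ^ k = 1 + N y'`. pv_step: for `x = 1 + ℓ ^ 2 y` one has `1 - x ^ ℓ = (1 - x) * ∑ i < ℓ, x ^ i`
and the sum is `ℓ (1 + ℓ y')`; induction on the multiset gives
`pv α (m * ℓ) = pv α m * ℓ ^ card α * (1 + ℓ Y)`, `Y` integral. `Y` is rational, so an integer
(`IsIntegrallyClosed`, `isIntegral_algebraMap_iff`, `IsIntegrallyClosed.isIntegral_iff`).
-/

namespace P019.Z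

theorem alg_fin {S : Type*} [CommRing S] {N : ℕ} (hN : 0 < N) (h0 : (N : S) = 0) {x : S}
    (hx : IsIntegral ℤ x) (hu : IsUnit x) : ∃ m, 0 < m ∧ x ^ m = 1 := by
  have h1 := Algebra.finite_adjoin_simple_of_isIntegral hx
  have h2 : Finite (Algebra.adjoin ℤ {x}) := Module.finite_of_fg_torsion _ fun y =>
    ⟨⟨(N : ℤ), mem_nonZeroDivisors_of_ne_zero (by exact_mod_cast hN.ne')⟩, Subtype.ext (by
      simp [Submonoid.smul_def, h0])⟩
  obtain ⟨i, j, hij, h⟩ := Finite.exists_ne_map_eq_of_infinite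
    fun n : ℕ => (⟨x, Algebra.self_mem_adjoin_singleton ℤ x⟩ : Algebra.adjoin ℤ {x}) ^ n
  have h3 : x ^ i = x ^ j := congrArg Subtype.val h
  wlog hlt : i < j generalizing i j
  · exact this j i hij.symm h.symm h3.symm (by omega)
  refine ⟨j - i, by omega, (hu.pow i).mul_left_cancel ?_⟩
  rw [← pow_add, mul_one, h3]
  congr 1
  omega

theorem alg_pow {a b : ℂ} (ha : IsIntegral ℤ a) (hb : IsIntegral ℤ b) {Q N : ℕ} (hab : a * b = Q)
    (hN : 0 < N) (hc : Q.Coprime N) :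
    ∃ m, 0 < m ∧ ∃ y, IsIntegral ℤ y ∧ a ^ m = 1 + N * y := by
  let I : Ideal (integralClosure ℤ ℂ) := Ideal.span {(N : integralClosure ℤ ℂ)}
  let a' : integralClosure ℤ ℂ := ⟨a, ha⟩
  let b' : integralClosure ℤ ℂ := ⟨b, hb⟩
  have h0 : (N : integralClosure ℤ ℂ ⧸ I) = 0 := by
    rw [← map_natCast (Ideal.Quotient.mk I), Ideal.Quotient.eq_zero_iff_mem]
    exact Ideal.mem_span_singleton_self _
  have h1 : a' * b' = Q := Subtype.ext hab
  have h2 : IsUnit (Ideal.Quotient.mk I a') := by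
    have h3 : IsCoprime (Q : integralClosure ℤ ℂ ⧸ I) (N : integralClosure ℤ ℂ ⧸ I) := hc.cast
    rw [h0, isCoprime_zero_right, ← map_natCast (Ideal.Quotient.mk I), ← h1, map_mul] at h3
    exact isUnit_of_mul_isUnit_left h3
  obtain ⟨m, hm, h4⟩ := alg_fin hN h0
    ((integralClosure.isIntegral a').map (Ideal.Quotient.mkₐ ℤ I)) h2
  have h5 : Ideal.Quotient.mk I (a' ^ m) = Ideal.Quotient.mk I 1 := by
    rw [map_pow, map_one]
    exact h4
  obtain ⟨y, hy⟩ := Ideal.mem_span_singleton'.1 (Ideal.Quotient.eq.1 h5)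
  have h6 : (y : ℂ) * N = a ^ m - 1 := congrArg Subtype.val hy
  exact ⟨m, hm, y, y.2, by linear_combination -h6⟩

theorem alg_one_add {N : ℕ} {y : ℂ} (hy : IsIntegral ℤ y) (k : ℕ) :
    ∃ y', IsIntegral ℤ y' ∧ (1 + N * y) ^ k = 1 + N * y' := by
  induction k with
  | zero => exact ⟨0, isIntegral_zero, by simp⟩
  | succ k ih =>
    obtain ⟨z, hz, h⟩ := ih
    refine ⟨z + y + N * (z * y), (hz.add hy).add ((isIntegral_natCast N).mul (hz.mul hy)), ?_⟩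
    rw [pow_succ, h]
    ring

theorem alg_mul {N m : ℕ} {a : ℂ} (h : ∃ y, IsIntegral ℤ y ∧ a ^ m = 1 + N * y) (k : ℕ) :
    ∃ y, IsIntegral ℤ y ∧ a ^ (m * k) = 1 + N * y := by
  obtain ⟨y, hy, h⟩ := h
  rw [pow_mul, h]
  exact alg_one_add hy k

theorem alg_common {N : ℕ} (s : Multiset ℂ)
    (h : ∀ a ∈ s, ∃ m, 0 < m ∧ ∃ y, IsIntegral ℤ y ∧ a ^ m = 1 + N * y) :
    ∃ m, 0 < m ∧ ∀ a ∈ s, ∃ y, IsIntegral ℤ y ∧ a ^ m = 1 + N * y := by
  induction s using Multiset.induction_on with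
  | empty => exact ⟨1, one_pos, fun a ha => absurd ha (Multiset.notMem_zero a)⟩
  | cons b s ih =>
    obtain ⟨m, hm, h1⟩ := ih fun a ha => h a (Multiset.mem_cons_of_mem ha)
    obtain ⟨m', hm', h2⟩ := h b (Multiset.mem_cons_self b s)
    refine ⟨m * m', mul_pos hm hm', fun a ha => ?_⟩
    rcases Multiset.mem_cons.1 ha with rfl | ha
    · rw [mul_comm m]
      exact alg_mul h2 m
    · exact alg_mul (h1 a ha) m'

theorem exists_m0 {α : Multiset ℂ} (hα : ∀ a ∈ α, IsIntegral ℤ a) {Q N : ℕ} (hQ : α.prod = Q)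
    (hN : 0 < N) (hc : Q.Coprime N) :
    ∃ m₀, 0 < m₀ ∧ ∀ k, ∀ a ∈ α, ∃ y, IsIntegral ℤ y ∧ a ^ (m₀ * k) = 1 + N * y := by
  classical
  obtain ⟨m, hm, h⟩ := alg_common (N := N) α fun a ha => alg_pow (hα a ha)
    (IsIntegral.multiset_prod fun b hb => hα b (Multiset.mem_of_mem_erase hb))
    ((Multiset.prod_erase ha).trans hQ) hN hc
  exact ⟨m, hm, fun k a ha => alg_mul (h a ha) k⟩

theorem alg_geom {ℓ : ℕ} {y : ℂ} (hy : IsIntegral ℤ y) (k : ℕ) : ∃ z, IsIntegral ℤ z ∧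
    ∑ i ∈ Finset.range k, (1 + ((ℓ ^ 2 : ℕ) : ℂ) * y) ^ i = k + (ℓ : ℂ) ^ 2 * z := by
  induction k with
  | zero => exact ⟨0, isIntegral_zero, by simp⟩
  | succ k ih =>
    obtain ⟨z, hz, h⟩ := ih
    obtain ⟨w, hw, h'⟩ := alg_one_add (N := ℓ ^ 2) hy k
    refine ⟨z + w, hz.add hw, ?_⟩
    rw [Finset.sum_range_succ, h, h']
    push_cast
    ring

theorem alg_pv {ℓ m : ℕ} (α : Multiset ℂ)
    (hα : ∀ a ∈ α, ∃ y, IsIntegral ℤ y ∧ a ^ m = 1 + ((ℓ ^ 2 : ℕ) : ℂ) * y) :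
    ∃ Y, IsIntegral ℤ Y ∧ pv α (m * ℓ) = pv α m * (ℓ : ℂ) ^ α.card * (1 + ℓ * Y) := by
  induction α using Multiset.induction_on with
  | empty => exact ⟨0, isIntegral_zero, by simp [pv]⟩
  | cons b s ih =>
    obtain ⟨Y, hY, h1⟩ := ih fun a ha => hα a (Multiset.mem_cons_of_mem ha)
    obtain ⟨y, hy, h2⟩ := hα b (Multiset.mem_cons_self b s)
    obtain ⟨z, hz, h3⟩ := alg_geom (ℓ := ℓ) hy ℓ
    refine ⟨z + Y + ℓ * (z * Y), (hz.add hY).add ((isIntegral_natCast ℓ).mul (hz.mul hY)), ?_⟩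
    rw [← h2] at h3
    unfold pv at h1 ⊢
    rw [Multiset.map_cons, Multiset.map_cons, Multiset.prod_cons, Multiset.prod_cons, h1,
      Multiset.card_cons, pow_mul, ← mul_neg_geom_sum, h3]
    ring

theorem pv_step {α : Multiset ℂ} {ℓ m h h' : ℕ} (hℓ : ℓ.Prime)
    (hα : ∀ a ∈ α, ∃ y, IsIntegral ℤ y ∧ a ^ m = 1 + ((ℓ ^ 2 : ℕ) : ℂ) * y) (h0 : h ≠ 0)
    (h1 : pv α m = h) (h2 : pv α (m * ℓ) = h') :
    ∃ u : ℕ, ¬ ℓ ∣ u ∧ h' = h * ℓ ^ α.card * u := by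
  obtain ⟨Y, hY, h3⟩ := alg_pv α hα
  rw [h1, h2] at h3
  have a1 : (h : ℂ) ≠ 0 := by exact_mod_cast h0
  have a2 : (ℓ : ℂ) ≠ 0 := by exact_mod_cast hℓ.ne_zero
  have h4 : Y = algebraMap ℚ ℂ (((h' : ℚ) / (h * (ℓ : ℚ) ^ α.card) - 1) / ℓ) := by
    rw [eq_ratCast]
    push_cast
    rw [h3]
    field_simp
    ring
  have h5 := hY
  rw [h4, isIntegral_algebraMap_iff (algebraMap ℚ ℂ).injective,
    IsIntegrallyClosed.isIntegral_iff] at h5
  obtain ⟨z, hz⟩ := h5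
  rw [← hz, eq_ratCast, eq_intCast, Rat.cast_intCast] at h4
  rw [h4] at h3
  have h6 : (h' : ℤ) = h * (ℓ : ℤ) ^ α.card * (1 + ℓ * z) := by exact_mod_cast h3
  refine ⟨(1 + ℓ * z).natAbs, fun hd => ?_, ?_⟩
  · have h7 : (ℓ : ℤ) ∣ 1 := (dvd_add_left (dvd_mul_right _ z)).1 (Int.natCast_dvd.2 hd)
    exact hℓ.not_dvd_one (by exact_mod_cast h7)
  · simpa [Int.natAbs_mul, Int.natAbs_pow] using congrArg Int.natAbs h6

end P019.Z
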