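import Vale.Agent.P019.Z.ZetaA
import Vale.Agent.P019.Z.Alg

/-!
P019 Z/ZetaB: class numbers of the powers, the norm is onto, the order of the torsion.
-/

namespace P019.Z

variable {Y J : Type*} [AddCommGroup J] {σ : Equiv.Perm Y} {τ : Module.End ℤ J} {p : Y → J}
  {q g : ℕ} {w : J}

theorem zetab_Ns (m s : ℕ) : Ns (σ ^ m) (fun _ => 1) s = Ns σ (fun _ => 1) (m * s) := by
  rw [Ns, Ns, pow_mul]

theorem zetab_ps (α : Multiset ℂ) (m s : ℕ) : ps (α.map fun a => a ^ m) s = ps α (m * s) := by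
  simp only [ps, Multiset.map_map, Function.comp_def, pow_mul]

theorem zetab_pv (α : Multiset ℂ) (m : ℕ) : pv (α.map fun a => a ^ m) 1 = pv α m := by
  simp only [pv, Multiset.map_map, Function.comp_def, pow_one]

theorem zetab_succ {m : ℕ} (hm : 0 < m) (s : ℕ) : ∃ t, m * (s + 1) = t + 1 :=
  Nat.exists_eq_succ_of_ne_zero (Nat.mul_pos hm s.succ_pos).ne'

theorem Zd.ncard_ne (h : Zd σ τ p q g w) : (Fj τ).ncard ≠ 0 :=
  Set.ncard_ne_zero_of_mem (a := 0) (map_zero τ) h.fin_Fj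

theorem Zd.h_pow {m : ℕ} (hm : 0 < m) (h : Zd (σ ^ m) (τ ^ m) p (q ^ m) g w) {α : Multiset ℂ}
    (hα : ∀ s, Ns σ (fun _ => 1) (s + 1) = 1 + (q : ℂ) ^ (s + 1) - ps α (s + 1)) :
    pv α m = (Fj (τ ^ m)).ncard := by
  obtain ⟨α', -, -, -, h1, h2⟩ := h.alpha
  rw [← h1, ← zetab_pv]
  refine pv_eq fun s => ?_
  obtain ⟨t, ht⟩ := zetab_succ hm s
  have h3 := h2 s
  rw [zetab_Ns, ht, hα, Nat.cast_pow, ← pow_mul, ht] at h3
  rw [zetab_ps, ht]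
  linear_combination -h3

theorem Zd.onto {n : ℕ} (hn : 0 < n) (h : Zd σ τ p q g w)
    (h' : Zd (σ ^ n) (τ ^ n) p (q ^ n) g w) {c : J} (hc : τ c = c) :
    ∃ y, (τ ^ n) y = y ∧ Nm τ n y = c := by
  by_contra hno
  obtain ⟨χ, h0, hm, hs, h1⟩ := exists_chi h.fin_Fj n hc hno
  obtain ⟨β, hβ⟩ := h.beta h0 hm hs
  obtain ⟨α, -, -, -, h2, h3⟩ := h'.alpha
  have h4 : pv α 1 = pv (1 ::ₘ ((q ^ n : ℕ) : ℂ) ::ₘ β.map fun a => a ^ n) 1 := by
    refine pv_eq fun s => ?_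
    obtain ⟨t, ht⟩ := zetab_succ hn s
    have h5 : Ns σ (fun E => χ (E.map p).sum) (n * (s + 1)) = Ns σ (fun _ => 1) (n * (s + 1)) := by
      refine finsum_mem_congr rfl fun P hP => ?_
      beta_reduce
      rw [h.sum_Tm, Nm_mul]
      refine h1 _ (Nm_fixed ?_)
      rw [← pow_mul, ← h.comm_pow, show (σ ^ (n * (s + 1))) P = P from hP]
    rw [← zetab_Ns, h3, ht, hβ, ← ht, ← zetab_ps] at h5
    simp only [ps, Multiset.map_cons, Multiset.sum_cons, one_pow] at h5 ⊢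
    linear_combination h5
  rw [h2] at h4
  refine h'.ncard_ne ?_
  simpa [pv] using h4

theorem zd_tors {ℓ : ℕ} (hℓ : ℓ.Prime) (hq : q.Coprime ℓ)
    (H : ∀ m, 0 < m → Zd (σ ^ m) (τ ^ m) p (q ^ m) g w) (per : ∀ y, ∃ m, 0 < m ∧ (τ ^ m) y = y) :
    {y : J | ℓ • y = 0}.Finite ∧ {y : J | ℓ • y = 0}.ncard = ℓ ^ (2 * g) := by
  have h1 := H 1 one_pos
  rw [pow_one, pow_one, pow_one] at h1
  obtain ⟨α, hc, hi, hp, -, hα⟩ := h1.alpha
  obtain ⟨m₀, hm₀, h2⟩ := exists_m0 hi (Q := q ^ g) (N := ℓ ^ 2) (by rw [hp, Nat.cast_pow])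
    (pow_pos hℓ.pos 2) (hq.pow g 2)
  refine card_tors hℓ hm₀ per (fun m hm => (H m hm).fin_Fj) (fun m hm c hc => ?_) fun k hk => ?_
  · refine (H m hm).onto hℓ.pos ?_ hc
    rw [← pow_mul, ← pow_mul, ← pow_mul]
    exact H _ (Nat.mul_pos hm hℓ.pos)
  · have h3 := Nat.mul_pos hm₀ hk
    have h4 := Nat.mul_pos h3 hℓ.pos
    rw [← hc]
    exact pv_step hℓ (h2 k) (H _ h3).ncard_ne ((H _ h3).h_pow h3 hα) ((H _ h4).h_pow h4 hα)

end P019.Z
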