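import Vale.Agent.P019.Z.Frob

/-!
P019 Z/Act: the action of the Frobenius on places and divisors. Helper lemmas start with `act_`.
Plan. place_ext: `cv_sep`. exists_act: `σ P = P.1.comap ψ.symm`, inverse `comap ψ` (constants: `c ↦ c ^ q`
is onto since `κ` is algebraically closed). `f ↦ ord P (ψ.symm f)` and `ord (σ P)` are both `IsOrd` for
the same ring (`cv_isOrd`), and `IsOrd` determines the function (value one at `π`: units have value
zero, `a / π ^ o a` is a unit; the other function takes the value one, so `o' π = 1`).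
per: a uniformizer `π` at `P` is fixed by `ψ ^ m`, so `σ ^ m` maps the finite set `{Q | ord Q π ≠ 0}`
(`cv_finite`) into itself; pigeonhole and injectivity.
fin: `x` transcendental (from `IsFF`), fixed by `ψ' = ψ ^ m`. A place `P` fixed by `σ` is a pole of `x` or
`0 < ord P (x - c)` (`cv_res`, `cv_val_eq_one`); then `0 < ord P (x - c ^ q')`, so `c ^ q' = c` (a nonzero
constant has valuation one); finitely many `c` (roots of `X ^ q' - X`), each with finitely many zeros.
-/

namespace P019.Z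

section
variable {Y : Type*}

theorem sD_apply (σ : Equiv.Perm Y) (D : Y →₀ ℤ) (P : Y) : sD σ D (σ P) = D P := by
  exact Finsupp.mapDomain_apply σ.injective D P
theorem sD_single (σ : Equiv.Perm Y) (P : Y) (n : ℤ) :
    sD σ (Finsupp.single P n) = Finsupp.single (σ P) n := by
  exact Finsupp.mapDomain_single
theorem sD_one (D : Y →₀ ℤ) : sD 1 D = D := by
  exact Finsupp.mapDomain_id
theorem sD_mul (σ σ' : Equiv.Perm Y) (D : Y →₀ ℤ) : sD (σ * σ') D = sD σ (sD σ' D) := by
  exact Finsupp.mapDomain_comp (f := σ') (g := σ)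
theorem sD_pow {σ : Equiv.Perm Y} {D : Y →₀ ℤ} (h : sD σ D = D) (m : ℕ) : sD (σ ^ m) D = D := by
  induction m with
  | zero => rw [pow_zero, sD_one]
  | succ m ih => rw [pow_succ, sD_mul, h, ih]
theorem sD_per {σ : Equiv.Perm Y} (h : ∀ P, ∃ m, 0 < m ∧ (σ ^ m) P = P) (D : Y →₀ ℤ) :
    ∃ m, 0 < m ∧ sD (σ ^ m) D = D := by
  choose m hm0 hm using h
  refine ⟨∏ P ∈ D.support, m P, Finset.prod_pos fun P _ => hm0 P, ?_⟩
  refine (Finsupp.mapDomain_congr (g := id) fun P hP => ?_).trans Finsupp.mapDomain_id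
  obtain ⟨k, hk⟩ := Finset.dvd_prod_of_mem m hP
  rw [hk, pow_mul]
  exact Equiv.Perm.pow_apply_eq_self_of_apply_eq_self (hm P) k

end

variable {κ F : Type*} [Field κ] [Field F] [Algebra κ F]

/-- `σ` is the action of `ψ` on places -/
def Act (ψ : RingAut F) (σ : Equiv.Perm (Place κ F)) : Prop :=
  ∀ P f, ord (σ P) (ψ f) = ord P f

variable {ψ : RingAut F} {q : ℕ} {σ : Equiv.Perm (Place κ F)}

theorem ddeg_sD (σ : Equiv.Perm (Place κ F)) (D : Dvs κ F) : ddeg (sD σ D) = ddeg D := by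
  induction D using Finsupp.induction_linear with
  | zero => rw [map_zero]
  | add D E hD hE => rw [map_add, map_add, map_add, hD, hE]
  | single P n => rw [sD_single, P019.ddeg_single, P019.ddeg_single]

theorem ddeg_single (P : Place κ F) (n : ℤ) : ddeg (Finsupp.single P n : Dvs κ F) = n := by
  exact P019.ddeg_single P n

theorem Act.pow (h : Act ψ σ) (m : ℕ) : Act (ψ ^ m) (σ ^ m) := by
  induction m with
  | zero => exact fun P f => rfl
  | succ m ih =>
    intro P f
    rw [pow_succ', pow_succ']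
    exact (h _ _).trans (ih P f)

theorem Act.mem_LSet (h : Act ψ σ) {D : Dvs κ F} {f : F} (hf : f ∈ LSet D) :
    ψ f ∈ LSet (sD σ D) := by
  rcases hf with rfl | hf
  · exact Or.inl (map_zero ψ)
  · refine Or.inr fun Q => ?_
    obtain ⟨P, rfl⟩ := σ.surjective Q
    rw [sD_apply, h]
    exact hf P

variable [IsAlgClosed κ]

theorem place_ext (h : IsFF κ F 1) {P Q : Place κ F} (e : ∀ f, ord P f = ord Q f) : P = Q := by
  by_contra hne
  obtain ⟨f, -, h1, h2⟩ := cv_sep h hne
  rw [e, h2] at h1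
  exact zero_ne_one h1

theorem exists_place (h : IsFF κ F 1) : Nonempty (Place κ F) := by
  obtain ⟨y, hy, -⟩ := h
  by_contra hne
  exact (cv_trans_iff (y 0)).1 (hy.transcendental 0) (cv_const_of_mem fun P => (hne ⟨P⟩).elim)

theorem act_unique (h : IsFF κ F 1) (P : Place κ F) {o : F → ℤ} (ho : IsOrd P.1 o) (a : F) :
    o a = ord P a := by
  obtain ⟨h0, hm, hmem, π', hπ', h1'⟩ := ho
  have o1 : o 1 = 0 := by
    have := hm 1 1 one_ne_zero one_ne_zero
    rw [one_mul] at this
    omega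
  have oi : ∀ a, a ≠ 0 → o a⁻¹ = -o a := by
    intro a ha
    have := hm a a⁻¹ ha (inv_ne_zero ha)
    rw [mul_inv_cancel₀ ha, o1] at this
    omega
  have op : ∀ a, a ≠ 0 → ∀ n : ℕ, o (a ^ n) = n * o a := by
    intro a ha n
    induction n with
    | zero => simp [o1]
    | succ n ih =>
      rw [pow_succ, hm _ _ (pow_ne_zero n ha) ha, ih]
      push_cast
      ring
  have oz : ∀ a, a ≠ 0 → ∀ n : ℤ, o (a ^ n) = n * o a := by
    intro a ha n
    rcases n with n | n
    · simp [op a ha]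
    · rw [zpow_negSucc, oi _ (pow_ne_zero _ ha), op a ha, Int.negSucc_eq]
      push_cast
      ring
  obtain ⟨π, hπ, h1⟩ := exists_ord h P 1
  have key : ∀ a, a ≠ 0 → o a = ord P a * o π := by
    intro a ha
    have h2 : π ^ (-ord P a) ≠ 0 := zpow_ne_zero _ hπ
    have h3 : a * π ^ (-ord P a) ≠ 0 := mul_ne_zero ha h2
    have h4 : ord P (a * π ^ (-ord P a)) = 0 := by
      rw [ord_mul h P ha h2, ord_zpow h, h1]
      ring
    have h5 := (hmem _ h3).1 ((ord_mem_iff h P h3).2 h4.ge)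
    have h6 := (hmem _ (inv_ne_zero h3)).1 ((ord_mem_iff h P (inv_ne_zero h3)).2
      (by rw [ord_inv h, h4, neg_zero]))
    rw [oi _ h3] at h6
    rw [hm _ _ ha h2, oz π hπ] at h5 h6
    linarith
  have h2 : o π = 1 := by
    have h3 := key π' hπ'
    have h4 := (hmem π hπ).1 ((ord_mem_iff h P hπ).2 (by omega))
    rw [h1'] at h3
    exact Int.eq_one_of_mul_eq_one_left h4 h3.symm
  by_cases ha : a = 0
  · rw [ha, h0, ord_zero h]
  · rw [key a ha, h2, mul_one]

omit [IsAlgClosed κ] in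
/-- pull back of a place -/
def act_pl (φ : RingAut F) (hφ : ∀ c : κ, ∃ c', φ (algebraMap κ F c) = algebraMap κ F c')
    (P : Place κ F) : Place κ F :=
  ⟨P.1.comap φ.toRingHom, fun e => P.2.1 (eq_top_iff.2 fun a _ => by
      have h1 : φ.symm a ∈ P.1.comap φ.toRingHom := by
        rw [e]
        trivial
      simpa using h1), fun c => by
    obtain ⟨c', hc⟩ := hφ c
    have h1 := P.2.2 c'
    rw [← hc] at h1
    exact h1⟩

theorem exists_act (h : IsFF κ F 1) (hψ : Frob κ ψ q) :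
    ∃ σ : Equiv.Perm (Place κ F), Act ψ σ := by
  have h1 : ∀ c : κ, ∃ c', ψ (algebraMap κ F c) = algebraMap κ F c' := fun c => ⟨_, hψ.const c⟩
  have h2 : ∀ c : κ, ∃ c', ψ.symm (algebraMap κ F c) = algebraMap κ F c' := by
    intro c
    obtain ⟨c', rfl⟩ := IsAlgClosed.exists_pow_nat_eq c (zero_lt_one.trans hψ.one_lt)
    exact ⟨c', by rw [← hψ.const, RingEquiv.symm_apply_apply]⟩
  refine ⟨⟨act_pl ψ.symm h2, act_pl ψ h1, fun P => Subtype.ext (SetLike.ext fun a => ?_),
    fun P => Subtype.ext (SetLike.ext fun a => ?_)⟩, fun P f => ?_⟩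
  · simp [act_pl]
  · simp [act_pl]
  · have h3 : IsOrd (act_pl ψ.symm h2 P).1 fun g => ord P (ψ.symm g) := by
      obtain ⟨π, hπ, e⟩ := exists_ord h P 1
      refine ⟨by simp [ord_zero h], fun a b ha hb => ?_, fun a ha => ?_, ψ π, by simpa using hπ,
        by simpa using e⟩
      · simp only [map_mul]
        exact ord_mul h P (by simpa using ha) (by simpa using hb)
      · exact ord_mem_iff h P (a := ψ.symm a) (by simpa using ha)
    have h4 := act_unique h _ h3 (ψ f)
    rw [RingEquiv.symm_apply_apply] at h4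
    exact h4.symm

theorem Act.dv (h : IsFF κ F 1) (hσ : Act ψ σ) (f : F) : dv κ (ψ f) = sD σ (dv κ f) := by
  ext Q
  obtain ⟨P, rfl⟩ := σ.surjective Q
  rw [sD_apply, dv_apply h, dv_apply h, hσ]

theorem Act.per (h : IsFF κ F 1) (hψ : Frob κ ψ q) (hσ : Act ψ σ) (P : Place κ F) :
    ∃ m, 0 < m ∧ (σ ^ m) P = P := by
  obtain ⟨π, hπ, e⟩ := exists_ord h P 1
  obtain ⟨m, hm0, hm⟩ := hψ.per π
  obtain ⟨a, b, hab, e'⟩ := (cv_finite h π).exists_lt_map_eq_of_forall_mem
    (f := fun k : ℕ => (σ ^ (m * k)) P) fun k => by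
      have h1 := hσ.pow (m * k) P π
      rw [per_mul hm k, e] at h1
      show ord _ π ≠ 0
      rw [h1]
      exact one_ne_zero
  obtain ⟨c, rfl⟩ := Nat.exists_eq_add_of_lt hab
  refine ⟨m * (c + 1), by positivity, (σ ^ (m * a)).injective ?_⟩
  rw [← Equiv.Perm.mul_apply, ← pow_add, ← mul_add, ← add_assoc]
  exact e'.symm

theorem Act.fin (h : IsFF κ F 1) (hψ : Frob κ ψ q) (hσ : Act ψ σ) : (Fx σ).Finite := by
  obtain ⟨x, hx⟩ : ∃ x : F, Transcendental κ x := by
    obtain ⟨y, hy, -⟩ := h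
    exact ⟨y 0, hy.transcendental 0⟩
  obtain ⟨m, hm0, hm⟩ := hψ.per x
  have hq : 1 < q ^ m := Nat.one_lt_pow hm0.ne' hψ.one_lt
  have hT : {c : κ | c ^ q ^ m = c}.Finite := by
    refine (Polynomial.finite_setOfPred_isRoot (FiniteField.X_pow_card_sub_X_ne_zero κ hq)).subset
      fun c hc => ?_
    have h1 : c ^ q ^ m = c := hc
    simp [h1]
  refine ((cv_finite h x).union (hT.biUnion fun c _ =>
    cv_finite h (x - algebraMap κ F c))).subset fun P hP => ?_
  by_cases h0 : ord P x = 0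
  · have hne : ∀ c : κ, x - algebraMap κ F c ≠ 0 := fun c e =>
      (cv_trans_iff x).1 hx ⟨c, sub_eq_zero.1 e⟩
    have hx0 : x ≠ 0 := by simpa using hne 0
    obtain ⟨c, hc⟩ := cv_res h P ((ord_mem_iff h P hx0).2 h0.ge)
    have h1 := (ord_val_lt_one h P (hne c)).1 hc
    refine Or.inr (Set.mem_biUnion (x := c) ?_ h1.ne')
    have h2 := hσ.pow m P (x - algebraMap κ F c)
    rw [Equiv.Perm.pow_apply_eq_self_of_apply_eq_self hP, map_sub, hm, hψ.const_pow] at h2
    have h3 : (x - algebraMap κ F c) - (x - algebraMap κ F (c ^ q ^ m)) ∈ OS h P 1 :=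
      Submodule.sub_mem _ (Or.inr h1) (Or.inr (by omega))
    rw [sub_sub_sub_cancel_left, ← map_sub, mem_OS, ord_const h] at h3
    have h4 := h3.resolve_right (by omega)
    exact sub_eq_zero.1 ((map_eq_zero _).1 h4)
  · exact Or.inl h0

end P019.Z
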