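import Vale.Agent.P019.Z.Defs

/-!
P019 Z/Desc: fixed vectors of semilinear maps. Helper lemmas start with `desc_`.
Plan. card_roots: `X ^ q - X` is separable (derivative `-1`) of degree `q`, so it has `q` roots
(`Polynomial.card_rootSet_eq_natDegree`, `IsAlgClosed.splits`, or `nodup_roots`).
semi_span: for `c ^ q ^ m = c` the vector `t c = ∑ i < m, T^[i] (c • v) = ∑ i < m, c ^ q ^ i • T^[i] v`
is fixed (telescoping) and lies in `V`. If `v` is not in the span take a functional `η` vanishing on
the span with `η v ≠ 0` (`Submodule.exists_dual_map_eq_bot_of_notMem`). The polynomial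
`∑ i < m, monomial (q ^ i) (η (T^[i] v))` has degree `< q ^ m` and `q ^ m` roots, so it is zero
(`Polynomial.eq_zero_of_natDegree_lt_card_of_eval_eq_zero'`); its coefficient at `1` is `η v`.
card_fix: the fixed vectors span `V`, so they contain a basis `b` (`exists_linearIndependent`,
or `Submodule.exists_finset_span_eq_linearIndepOn`); `∑ c i • b i` is fixed iff `c i ^ q = c i`.
-/

namespace P019.Z

variable {κ M : Type*} [Field κ] [IsAlgClosed κ] [AddCommGroup M] [Module κ M] {q : ℕ}

theorem card_roots (hq : 1 < q) (hc : (q : κ) = 0) :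
    {c : κ | c ^ q = c}.Finite ∧ {c : κ | c ^ q = c}.ncard = q := by
  classical
  have hne := FiniteField.X_pow_card_sub_X_ne_zero κ hq
  have hs : (Polynomial.X ^ q - Polynomial.X : Polynomial κ).Separable := by
    have : Polynomial.derivative (Polynomial.X ^ q - Polynomial.X : Polynomial κ) = -1 := by
      rw [Polynomial.derivative_sub, Polynomial.derivative_X_pow, hc]; simp
    rw [Polynomial.separable_def, this]
    exact isCoprime_one_right.neg_right
  have e : {c : κ | c ^ q = c}
      = ((Polynomial.X ^ q - Polynomial.X : Polynomial κ).roots.toFinset : Set κ) := by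
    ext c
    simp [Polynomial.mem_roots hne, sub_eq_zero]
  rw [e]
  refine ⟨Finset.finite_toSet _, ?_⟩
  rw [Set.ncard_coe_finset, Multiset.toFinset_card_of_nodup (Polynomial.nodup_roots hs),
    IsAlgClosed.card_roots_eq_natDegree, FiniteField.X_pow_card_sub_X_natDegree_eq κ hq]

theorem semi_span (hq : 1 < q) (hc : (q : κ) = 0) (T : M →+ M)
    (hT : ∀ (c : κ) v, T (c • v) = c ^ q • T v) (V : Submodule κ M) (hV : ∀ v ∈ V, T v ∈ V)
    {v : M} (hv : v ∈ V) {m : ℕ} (hm : 0 < m) (hp : T^[m] v = v) :
    v ∈ Submodule.span κ {u | u ∈ V ∧ T u = u} := by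
  classical
  by_contra hn
  obtain ⟨η, hη, h0⟩ := Submodule.exists_dual_map_eq_bot_of_notMem hn inferInstance
  have hit : ∀ (i : ℕ) (c : κ), T^[i] (c • v) = c ^ q ^ i • T^[i] v := by
    intro i c
    induction i with
    | zero => simp
    | succ i ih => rw [Function.iterate_succ_apply', ih, hT, Function.iterate_succ_apply', ← pow_mul,
        pow_succ]
  have hmem : ∀ i : ℕ, T^[i] v ∈ V := by
    intro i
    induction i with
    | zero => exact hv
    | succ i ih => rw [Function.iterate_succ_apply']; exact hV _ ih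
  have hq' : 1 < q ^ m := Nat.one_lt_pow hm.ne' hq
  obtain ⟨hf, hcard⟩ := card_roots (κ := κ) hq' (by rw [Nat.cast_pow, hc, zero_pow hm.ne'])
  let f : Polynomial κ := ∑ i ∈ Finset.range m, Polynomial.monomial (q ^ i) (η (T^[i] v))
  have hz : f = 0 := by
    refine Polynomial.eq_zero_of_natDegree_lt_card_of_eval_eq_zero' f hf.toFinset
      (fun c hc' => ?_) ?_
    · have hc2 : c ^ q ^ m = c := hf.mem_toFinset.1 hc'
      have h1 : T (∑ i ∈ Finset.range m, T^[i] (c • v)) = ∑ i ∈ Finset.range m, T^[i] (c • v) := by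
        have h2 := Finset.sum_range_succ' (fun i => T^[i] (c • v)) m
        rw [Finset.sum_range_succ, hit m, hc2, hp] at h2
        rw [map_sum]
        simp only [Function.iterate_succ_apply', Function.iterate_zero_apply] at h2
        exact (add_right_cancel h2).symm
      have h3 : ∑ i ∈ Finset.range m, T^[i] (c • v) ∈ V :=
        V.sum_mem fun i _ => by rw [hit]; exact V.smul_mem _ (hmem i)
      have h4 : η (∑ i ∈ Finset.range m, T^[i] (c • v)) = 0 := by
        rw [← Submodule.mem_bot κ, ← h0]
        exact Submodule.mem_map_of_mem (Submodule.subset_span ⟨h3, h1⟩)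
      rw [← h4, map_sum, Polynomial.eval_finsetSum]
      refine Finset.sum_congr rfl fun i _ => ?_
      rw [hit, map_smul, Polynomial.eval_monomial, smul_eq_mul, mul_comm]
    · rw [← Set.ncard_eq_toFinset_card _ hf, hcard]
      refine lt_of_le_of_lt (Polynomial.natDegree_sum_le_of_forall_le _ _ fun i hi => ?_)
        (Nat.pow_lt_pow_right hq (Nat.sub_lt hm one_pos))
      exact (Polynomial.natDegree_monomial_le _).trans
        (Nat.pow_le_pow_right hq.le (Nat.le_sub_one_of_lt (Finset.mem_range.1 hi)))
  have h5 : f.coeff 1 = η v := by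
    rw [Polynomial.finsetSum_coeff, Finset.sum_eq_single 0]
    · simp
    · intro i _ hi
      rw [Polynomial.coeff_monomial, if_neg (Nat.one_lt_pow hi hq).ne']
    · intro h
      exact absurd (Finset.mem_range.2 hm) h
  rw [hz, Polynomial.coeff_zero] at h5
  exact hη h5.symm

theorem card_fix (hq : 1 < q) (hc : (q : κ) = 0) (T : M →+ M)
    (hT : ∀ (c : κ) v, T (c • v) = c ^ q • T v) (V : Submodule κ M) [Module.Finite κ V]
    (hV : ∀ v ∈ V, T v ∈ V) (hp : ∀ v ∈ V, ∃ m, 0 < m ∧ T^[m] v = v) :
    {u | u ∈ V ∧ T u = u}.Finite ∧ {u | u ∈ V ∧ T u = u}.ncard = q ^ Module.finrank κ V := by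
  classical
  have hs : Submodule.span κ {u | u ∈ V ∧ T u = u} = V := by
    refine le_antisymm (Submodule.span_le.2 fun u hu => hu.1) fun v hv => ?_
    obtain ⟨m, hm, h⟩ := hp v hv
    exact semi_span hq hc T hT V hV hv hm h
  have : Module.Finite κ (Submodule.span κ {u | u ∈ V ∧ T u = u}) := by rw [hs]; infer_instance
  obtain ⟨b, hb, hsp, hli⟩ := Submodule.exists_fun_fin_finrank_span_eq κ {u | u ∈ V ∧ T u = u}
  obtain ⟨hf, hcard⟩ := card_roots (κ := κ) hq hc
  have hinj := hli.fintypeLinearCombination_injective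
  have hTs : ∀ c, T (Fintype.linearCombination κ b c)
      = Fintype.linearCombination κ b fun i => c i ^ q := by
    intro c
    rw [Fintype.linearCombination_apply, Fintype.linearCombination_apply, map_sum]
    exact Finset.sum_congr rfl fun i _ => by rw [hT, (hb i).2]
  have e : {u | u ∈ V ∧ T u = u} = Fintype.linearCombination κ b ''
      ↑(Fintype.piFinset fun _ : Fin (Module.finrank κ (Submodule.span κ {u | u ∈ V ∧ T u = u})) =>
        hf.toFinset) := by
    ext u
    constructor
    · rintro ⟨h1, h2⟩
      rw [← hs, ← hsp, ← Fintype.range_linearCombination] at h1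
      obtain ⟨c, rfl⟩ := h1
      rw [hTs] at h2
      exact ⟨c, Finset.mem_coe.2 (Fintype.mem_piFinset.2 fun i =>
        hf.mem_toFinset.2 (congrFun (hinj h2) i)), rfl⟩
    · rintro ⟨c, hc', rfl⟩
      have h1 := Fintype.mem_piFinset.1 (Finset.mem_coe.1 hc')
      refine ⟨?_, ?_⟩
      · rw [Fintype.linearCombination_apply]
        exact V.sum_mem fun i _ => V.smul_mem _ (hb i).1
      · rw [hTs]
        congr 1
        funext i
        exact hf.mem_toFinset.1 (h1 i)
  refine ⟨e ▸ (Finset.finite_toSet _).image _, ?_⟩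
  refine (congrArg Set.ncard e).trans ?_
  rw [Set.ncard_image_of_injective _ hinj, Set.ncard_coe_finset, Fintype.card_piFinset_const,
    ← Set.ncard_eq_toFinset_card _ hf, hcard, hs]

end P019.Z
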