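import Vale.Agent.P019.Z.Act
import Vale.Agent.P019.Z.Desc

/-!
P019 Z/Cnt: fixed divisors. Helper lemmas start with `cnt_`.
Plan. eff_count: `U = {u ∈ LSp D | ψ u = u}` has `q ^ ldim D` elements (card_fix with `T = ψ`,
`mem_LSp`, `Act.mem_LSet`, `LSp_finite`). The map `u ↦ D + dv u` sends `U \ {0}` onto the set (if
`D + dv f` is fixed then `dv (ψ f) = dv f`, `ψ f = c f` by `dv_eq_zero_iff` for `ψ f / f`; rescale `f` by
`a` with `a ^ (q - 1) = c⁻¹`), and each fibre is `{c u₀ | c ^ q = c, c ≠ 0}` with `q - 1` elements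
(card_roots). Count with `Finset.card_eq_sum_card_fiberwise` or `Set.ncard` of a product
(the map `(E, c) ↦ c • u E` is a bijection).
fixed_rep: `N > 0` with `sD (σ ^ N) D = D` (`sD_per`, `Act.per`). By induction
`sD (σ ^ i) D = D + dv (g i)` with `g 0 = 1`, `g (i + 1) = f * ψ (g i)`; so `g N` is a nonzero constant
`c`. For `T v = a • (f * ψ v)` one has `T^[i] 1 = a ^ (∑ j < i, q ^ j) • g i`; choose `a` with
`T^[N] 1 = 1` (`IsAlgClosed.exists_pow_nat_eq`). semi_span with `V = ⊤`, `v = 1` gives a fixed `u ≠ 0`.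
-/

namespace P019.Z

variable {κ F : Type*} [Field κ] [Field F] [Algebra κ F] [IsAlgClosed κ] {ψ : RingAut F} {q : ℕ}
  {σ : Equiv.Perm (Place κ F)}

theorem cnt_dv_smul (h : IsFF κ F 1) {c : κ} (hc : c ≠ 0) (f : F) : dv κ (c • f) = dv κ f := by
  ext P
  rw [dv_apply h, dv_apply h, ord_smul h P hc]

theorem cnt_dv_eq (h : IsFF κ F 1) {f g : F} (hf : f ≠ 0) (hg : g ≠ 0) (e : dv κ g = dv κ f) :
    ∃ c : κ, c ≠ 0 ∧ g = c • f := by
  have h1 : dv κ (g * f⁻¹) = 0 := by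
    rw [dv_mul h hg (inv_ne_zero hf), cvd_inv h, e, add_neg_cancel]
  obtain ⟨c, hc⟩ := (dv_eq_zero_iff h (mul_ne_zero hg (inv_ne_zero hf))).1 h1
  have h2 : g = c • f := by rw [Algebra.smul_def, ← hc, inv_mul_cancel_right₀ hf]
  refine ⟨c, ?_, h2⟩
  rintro rfl
  exact hg (by rw [h2, zero_smul])

omit [IsAlgClosed κ] in
theorem cnt_semi (hψ : Frob κ ψ q) (c : κ) (v : F) : ψ (c • v) = c ^ q • ψ v := by
  rw [Algebra.smul_def, map_mul, hψ.const, Algebra.smul_def]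

theorem cnt_mem (h : IsFF κ F 1) (D : Dvs κ F) {f : F} (hf : f ≠ 0) :
    f ∈ LSp D ↔ 0 ≤ D + dv κ f := by
  rw [mem_LSp h, Finsupp.le_def]
  simp only [LSet, Set.mem_ofPred_eq, hf, false_or, Finsupp.coe_zero, Pi.zero_apply,
    Finsupp.add_apply, dv_apply h]
  exact forall_congr' fun P => by omega

theorem cnt_rep (h : IsFF κ F 1) (hψ : Frob κ ψ q) (hσ : Act ψ σ) {D : Dvs κ F}
    (hD : sD σ D = D) {f : F} (hf : f ≠ 0) (hE : sD σ (D + dv κ f) = D + dv κ f) :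
    ∃ u, u ≠ 0 ∧ ψ u = u ∧ dv κ u = dv κ f := by
  rw [map_add, hD, ← hσ.dv h, add_right_inj] at hE
  obtain ⟨c, hc, hcf⟩ := cnt_dv_eq h hf ((map_ne_zero ψ).2 hf) hE
  have hq := hψ.one_lt
  obtain ⟨a, ha⟩ := IsAlgClosed.exists_pow_nat_eq c⁻¹ (n := q - 1) (by omega)
  have ha0 : a ≠ 0 := by
    rintro rfl
    rw [zero_pow (by omega)] at ha
    exact inv_ne_zero hc ha.symm
  refine ⟨a • f, smul_ne_zero ha0 hf, ?_, cnt_dv_smul h ha0 f⟩
  have h1 : a ^ q = a * c⁻¹ := by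
    rw [← ha, ← pow_succ']
    congr 1
    omega
  rw [cnt_semi hψ, hcf, smul_smul, h1, inv_mul_cancel_right₀ hc]

theorem eff_count (h : IsFF κ F 1) (hψ : Frob κ ψ q) (hσ : Act ψ σ) {D : Dvs κ F}
    (hD : sD σ D = D) :
    {E : Dvs κ F | 0 ≤ E ∧ sD σ E = E ∧ ∃ f, f ≠ 0 ∧ E = D + dv κ f}.ncard * (q - 1) + 1 =
      q ^ ldim D := by
  set A := {E : Dvs κ F | 0 ≤ E ∧ sD σ E = E ∧ ∃ f, f ≠ 0 ∧ E = D + dv κ f} with hA
  have := LSp_finite h D
  obtain ⟨hU, hUc⟩ := card_fix hψ.one_lt hψ.char ψ.toAddEquiv.toAddMonoidHom (cnt_semi hψ) (LSp D)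
    (fun v hv => by
      have h1 := hσ.mem_LSet ((mem_LSp h D v).1 hv)
      rw [hD] at h1
      exact (mem_LSp h D _).2 h1)
    (fun v _ => by
      obtain ⟨m, hm, h1⟩ := hψ.per v
      refine ⟨m, hm, ?_⟩
      rw [RingAut.coe_pow] at h1
      exact h1)
  obtain ⟨hR, hRc⟩ := card_roots hψ.one_lt hψ.char
  have hex : ∀ E : Dvs κ F, ∃ u : F, E ∈ A → u ≠ 0 ∧ ψ u = u ∧ E = D + dv κ u := by
    intro E
    by_cases hE : E ∈ A
    · obtain ⟨-, h1, f, hf, rfl⟩ := hE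
      obtain ⟨u, hu, h2, h3⟩ := cnt_rep h hψ hσ hD hf h1
      exact ⟨u, fun _ => ⟨hu, h2, by rw [h3]⟩⟩
    · exact ⟨0, fun h1 => absurd h1 hE⟩
  choose u hu using hex
  have hq : q ≠ 0 := by have := hψ.one_lt; omega
  have hinj : Set.InjOn (fun z : Dvs κ F × κ => z.2 • u z.1) (A ×ˢ ({c : κ | c ^ q = c} \ {0})) := by
    rintro ⟨E, c⟩ ⟨hE, hc⟩ ⟨E', c'⟩ ⟨hE', hc'⟩ (e : c • u E = c' • u E')
    have h1 : E = E' := by
      rw [(hu E hE).2.2, (hu E' hE').2.2, ← cnt_dv_smul h hc.2 (u E), e, cnt_dv_smul h hc'.2]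
    subst h1
    rw [smul_left_injective κ (hu E hE).1 e]
  have himg : (fun z : Dvs κ F × κ => z.2 • u z.1) '' (A ×ˢ ({c : κ | c ^ q = c} \ {0})) =
      {v | v ∈ LSp D ∧ ψ.toAddEquiv.toAddMonoidHom v = v} \ {0} := by
    ext v
    constructor
    · rintro ⟨⟨E, c⟩, ⟨hE, hc⟩, rfl⟩
      obtain ⟨h1, h2, h3⟩ := hu E hE
      refine ⟨⟨Submodule.smul_mem _ _ ((cnt_mem h D h1).2 (h3 ▸ hE.1)), ?_⟩, smul_ne_zero hc.2 h1⟩
      change ψ (c • u E) = c • u E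
      rw [cnt_semi hψ, h2, show c ^ q = c from hc.1]
    · rintro ⟨⟨h1, h2 : ψ v = v⟩, h3 : v ≠ 0⟩
      have hE : D + dv κ v ∈ A :=
        ⟨(cnt_mem h D h3).1 h1, by rw [map_add, hD, ← hσ.dv h, h2], v, h3, rfl⟩
      obtain ⟨h4, h5, h6⟩ := hu _ hE
      obtain ⟨c, hc, h7⟩ := cnt_dv_eq h h4 h3 (add_left_cancel h6)
      refine ⟨(D + dv κ v, c), ⟨hE, ?_, hc⟩, h7.symm⟩
      have h8 := cnt_semi hψ c (u (D + dv κ v))
      rw [← h7, h2, h5] at h8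
      exact smul_left_injective κ h4 (h8.symm.trans h7)
  have h1 := hinj.ncard_image
  rw [himg, Set.ncard_prod] at h1
  have h2 := Set.ncard_sdiff_singleton_add_one (s := {c : κ | c ^ q = c}) (a := 0)
    (zero_pow hq) hR
  have h3 := Set.ncard_sdiff_singleton_add_one
    (s := {v | v ∈ LSp D ∧ ψ.toAddEquiv.toAddMonoidHom v = v}) (a := 0)
    ⟨zero_mem _, map_zero _⟩ hU
  rw [hUc, h1] at h3
  rw [hRc] at h2
  rw [ldim, ← h3, Nat.eq_sub_of_add_eq h2]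

theorem fixed_rep (h : IsFF κ F 1) (hψ : Frob κ ψ q) (hσ : Act ψ σ) {D : Dvs κ F} {f : F}
    (hf : f ≠ 0) (hD : sD σ D = D + dv κ f) :
    ∃ u, u ≠ 0 ∧ sD σ (D + dv κ u) = D + dv κ u := by
  obtain ⟨N, hN, hND⟩ := sD_per (hσ.per h hψ) D
  let T : κ → F →+ F := fun a =>
    { toFun := fun v => a • (f * ψ v)
      map_zero' := by rw [map_zero, mul_zero, smul_zero]
      map_add' := fun v w => by rw [map_add, mul_add, smul_add] }
  have hT : ∀ a v, T a v = a • (f * ψ v) := fun _ _ => rfl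
  have hTs : ∀ (a c : κ) v, T a (c • v) = c ^ q • T a v := fun a c v => by
    rw [hT, hT, cnt_semi hψ, mul_smul_comm, smul_comm]
  have key : ∀ i : ℕ, ∃ (g : F) (e : ℕ), g ≠ 0 ∧ sD (σ ^ i) D = D + dv κ g ∧ (0 < i → 0 < e) ∧
      ∀ a, (T a)^[i] 1 = a ^ e • g := by
    intro i
    induction i with
    | zero =>
      refine ⟨1, 0, one_ne_zero, ?_, id, fun a => by rw [pow_zero, one_smul]; rfl⟩
      rw [pow_zero, sD_one, (dv_eq_zero_iff h one_ne_zero).2 ⟨1, (map_one _).symm⟩, add_zero]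
    | succ i ih =>
      obtain ⟨g, e, hg, h1, -, h2⟩ := ih
      have hg' : ψ g ≠ 0 := (map_ne_zero ψ).2 hg
      refine ⟨f * ψ g, e * q + 1, mul_ne_zero hf hg', ?_, fun _ => Nat.succ_pos _, fun a => ?_⟩
      · rw [pow_succ', sD_mul, h1, map_add, hD, ← hσ.dv h, dv_mul h hf hg', add_assoc]
      · rw [Function.iterate_succ_apply', h2, hTs, hT, smul_smul, ← pow_mul, pow_succ]
  obtain ⟨g, e, hg, h1, he, h2⟩ := key N
  rw [hND, left_eq_add] at h1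
  obtain ⟨c, hc⟩ := (dv_eq_zero_iff h hg).1 h1
  have hc0 : c ≠ 0 := by
    rintro rfl
    exact hg (by rw [hc, map_zero])
  obtain ⟨a, ha⟩ := IsAlgClosed.exists_pow_nat_eq c⁻¹ (he hN)
  have ha0 : a ≠ 0 := by
    rintro rfl
    rw [zero_pow (he hN).ne'] at ha
    exact inv_ne_zero hc0 ha.symm
  have h3 : (T a)^[N] 1 = 1 := by
    rw [h2, ha, hc, Algebra.smul_def, ← map_mul, inv_mul_cancel₀ hc0, map_one]
  have h4 := semi_span hψ.one_lt hψ.char (T a) (hTs a) ⊤ (fun _ _ => Submodule.mem_top)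
    Submodule.mem_top hN h3
  by_contra hno
  have h5 : Submodule.span κ {u | u ∈ (⊤ : Submodule κ F) ∧ T a u = u} = ⊥ := by
    rw [Submodule.span_eq_bot]
    rintro u ⟨-, hu⟩
    by_contra hu0
    refine hno ⟨u, hu0, ?_⟩
    rw [map_add, hD, ← hσ.dv h, add_assoc, ← dv_mul h hf ((map_ne_zero ψ).2 hu0),
      ← cnt_dv_smul h ha0, ← hT, hu]
  rw [h5, Submodule.mem_bot] at h4
  exact one_ne_zero h4

end P019.Z
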