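import Vale.Agent.P019.Z.Ser

/-!
P019 Z/Comb: the recursion for fixed effective divisors. Helper lemmas start with `comb_`.
Plan. If `E.map σ = E` then `count (σ P) E = count P E` (`Multiset.count_map_eq_count'`), so the
orbit of `P ∈ E` lies in `E.toFinset`, `P` is periodic with `d = Function.minimalPeriod σ P`,
`0 < d ≤ card E`. eff_finite: members of `Eff σ n` are `≤ n • s.val` where `s` is the finite set
`Fx (σ ^ n !)` (`Multiset.finite_Iic`-style: `Set.finite_Iic`, or `Multiset.powerset`).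
comb count lemma: for fixed `E` of card `n` and any `P`,
`count P E = #{s ∈ Icc 1 n | (σ ^ s) P = P ∧ Tm σ s P ≤ E}`: `(σ ^ s) P = P ↔ d ∣ s`,
`Tm σ (j * d) P = j • Tm σ d P`, `Tm σ d P` has no duplicates, `Tm σ (j * d) P ≤ E ↔ j ≤ count P E`
(`Multiset.le_iff_count`), and `j * d = card (Tm ..) ≤ n`.
an_rec: `(n + 1) * ω E = ∑ P, count P E * ω E` (`Multiset.toFinset_sum_count_eq`), insert the count
lemma, exchange the sums, and for fixed `s, P` use the bijection `E' ↦ Tm σ s P + E'` from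
`Eff σ (n + 1 - s)` onto `{E ∈ Eff σ (n + 1) | Tm σ s P ≤ E}`. Turn `∑ᶠ` into finite sums with
`finsum_mem_eq_finite_toFinset_sum`; `Finset.Nat.sum_antidiagonal_eq_sum_range_succ_mk`.
-/

namespace P019.Z

variable {Y : Type*} {σ : Equiv.Perm Y}

theorem card_Tm (s : ℕ) (P : Y) : (Tm σ s P).card = s := by simp [Tm]

theorem comb_succ (s : ℕ) (P : Y) : Tm σ (s + 1) P = (σ ^ s) P ::ₘ Tm σ s P := by
  rw [Tm, Multiset.range_succ, Multiset.map_cons, Tm]

theorem comb_succ' (s : ℕ) (P : Y) : Tm σ (s + 1) P = P ::ₘ (Tm σ s P).map σ := by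
  induction s with
  | zero => simp [Tm]
  | succ s ih =>
    rw [comb_succ (s + 1)]
    conv_lhs => rw [ih]
    rw [Multiset.cons_swap, comb_succ, Multiset.map_cons, pow_succ', Equiv.Perm.mul_apply]

theorem Tm_fixed {s : ℕ} {P : Y} (h : (σ ^ s) P = P) : (Tm σ s P).map σ = Tm σ s P := by
  have e := comb_succ' (σ := σ) s P
  rw [comb_succ, h] at e
  exact ((Multiset.cons_inj_right P).1 e).symm

theorem comb_add (a b : ℕ) (P : Y) : Tm σ (a + b) P = Tm σ a P + Tm σ b ((σ ^ a) P) := by
  induction b with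
  | zero => simp [Tm]
  | succ b ih =>
    rw [← add_assoc, comb_succ, comb_succ, ih, Multiset.add_cons, add_comm a b, pow_add,
      Equiv.Perm.mul_apply]

theorem comb_mul {d : ℕ} {P : Y} (h : (σ ^ d) P = P) (j : ℕ) :
    Tm σ (j * d) P = j • Tm σ d P := by
  induction j with
  | zero => simp [Tm]
  | succ j ih => rw [Nat.succ_mul, add_comm, comb_add, h, ih, succ_nsmul']

theorem comb_count [DecidableEq Y] {E : Multiset Y} (hE : E.map σ = E) (i : ℕ) (P : Y) :
    E.count ((σ ^ i) P) = E.count P := by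
  induction i with
  | zero => simp
  | succ i ih =>
    rw [pow_succ', Equiv.Perm.mul_apply, ← ih]
    have e := Multiset.count_map_eq_count' σ E σ.injective ((σ ^ i) P)
    rwa [hE] at e

theorem comb_per {E : Multiset Y} (hE : E.map σ = E) {P : Y} (hP : P ∈ E) :
    ∃ d, 0 < d ∧ d ≤ E.card ∧ (σ ^ d) P = P := by
  classical
  have key : ∀ i j, i < j → j ≤ E.card → (σ ^ i) P = (σ ^ j) P →
      ∃ d, 0 < d ∧ d ≤ E.card ∧ (σ ^ d) P = P := fun i j h1 h2 e => by
    refine ⟨j - i, by omega, by omega, (σ ^ i).injective ?_⟩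
    rw [← Equiv.Perm.mul_apply, ← pow_add, Nat.add_sub_cancel' h1.le, e]
  obtain ⟨i, hi, j, hj, hij, e⟩ := Finset.exists_ne_map_eq_of_card_lt_of_maps_to
    (s := Finset.range (E.card + 1)) (t := E.toFinset) (f := fun i => (σ ^ i) P)
    (by rw [Finset.card_range]; exact Nat.lt_succ_of_le (Multiset.toFinset_card_le E))
    (fun i _ => by
      rw [Finset.mem_coe, Multiset.mem_toFinset, ← Multiset.one_le_count_iff_mem, comb_count hE]
      exact Multiset.one_le_count_iff_mem.2 hP)
  rw [Finset.mem_range] at hi hj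
  rcases lt_or_gt_of_ne hij with h | h
  · exact key i j h (by omega) e
  · exact key j i h (by omega) e.symm

theorem comb_fact {d n : ℕ} {P : Y} (h0 : 0 < d) (hd : d ≤ n) (h : (σ ^ d) P = P) :
    P ∈ Fx (σ ^ n.factorial) := by
  obtain ⟨c, hc⟩ := Nat.dvd_factorial h0 hd
  rw [hc, pow_mul]
  exact Equiv.Perm.pow_apply_eq_self_of_apply_eq_self h c

theorem comb_mem {n : ℕ} {E : Multiset Y} (hE : E ∈ Eff σ n) {P : Y} (hP : P ∈ E) :
    P ∈ Fx (σ ^ n.factorial) := by
  obtain ⟨d, h0, hd, h⟩ := comb_per hE.1 hP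
  exact comb_fact h0 (hE.2 ▸ hd) h

theorem eff_finite (hfin : ∀ s, 0 < s → (Fx (σ ^ s)).Finite) (n : ℕ) : (Eff σ n).Finite := by
  classical
  refine (Set.finite_Iic (n • (hfin _ n.factorial_pos).toFinset.val)).subset fun E hE => ?_
  refine Multiset.le_iff_count.2 fun P => ?_
  by_cases hP : P ∈ E
  · rw [Multiset.count_nsmul, Multiset.count_eq_one_of_mem (Finset.nodup _)
      ((Set.Finite.mem_toFinset _).2 (comb_mem hE hP)), mul_one, ← hE.2]
    exact Multiset.count_le_card _ _
  · rw [Multiset.count_eq_zero_of_notMem hP]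
    exact Nat.zero_le _

theorem eff_zero : Eff σ 0 = {0} := by
  ext E
  refine ⟨fun h => Multiset.card_eq_zero.1 h.2, fun h => ?_⟩
  rw [Set.mem_singleton_iff.1 h]
  exact ⟨rfl, rfl⟩

open Classical in
theorem comb_cnt {E : Multiset Y} (hE : E.map σ = E) (P : Y) :
    E.count P = ((Finset.range E.card).filter fun s =>
      (σ ^ (s + 1)) P = P ∧ Tm σ (s + 1) P ≤ E).card := by
  by_cases hP : P ∈ E
  · obtain ⟨d0, h0, -, h⟩ := comb_per hE hP
    have hper : ∀ s, (σ ^ s) P = P ↔ Function.minimalPeriod σ P ∣ s := fun s => by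
      rw [← Function.isPeriodicPt_iff_minimalPeriod_dvd, Function.IsPeriodicPt,
        Function.IsFixedPt, Equiv.Perm.iterate_eq_pow]
    have hd : 0 < Function.minimalPeriod σ P :=
      Nat.pos_of_ne_zero fun e => h0.ne' (Nat.eq_zero_of_zero_dvd (e ▸ (hper d0).1 h))
    have hnd : (Tm σ (Function.minimalPeriod σ P) P).Nodup :=
      (Multiset.nodup_range _).map_on fun i hi j hj e =>
        Function.iterate_injOn_Iio_minimalPeriod (f := σ) (x := P) (Multiset.mem_range.1 hi)
          (Multiset.mem_range.1 hj) (by simpa only [Equiv.Perm.iterate_eq_pow] using e)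
    have hdP := (hper _).2 dvd_rfl
    generalize Function.minimalPeriod σ P = d at hper hd hnd hdP
    have hle : ∀ j, Tm σ (j * d) P ≤ E ↔ j ≤ E.count P := fun j => by
      rw [comb_mul hdP, Multiset.le_iff_count]
      refine ⟨fun H => ?_, fun H Q => ?_⟩
      · have e := H P
        have m : P ∈ Tm σ d P := Multiset.mem_map.2 ⟨0, Multiset.mem_range.2 hd, rfl⟩
        rwa [Multiset.count_nsmul, Multiset.count_eq_one_of_mem hnd m, mul_one] at e
      · rw [Multiset.count_nsmul]
        by_cases hQ : Q ∈ Tm σ d P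
        · rw [Multiset.count_eq_one_of_mem hnd hQ, mul_one]
          obtain ⟨i, -, rfl⟩ := Multiset.mem_map.1 hQ
          rwa [comb_count hE]
        · rw [Multiset.count_eq_zero_of_notMem hQ]
          exact Nat.zero_le _
    have he : ∀ j : ℕ, (j + 1) * d - 1 + 1 = (j + 1) * d := fun j =>
      Nat.sub_add_cancel (Nat.mul_pos j.succ_pos hd)
    rw [← Finset.card_range (E.count P)]
    refine Finset.card_nbij (fun j => (j + 1) * d - 1) (fun j hj => ?_) (fun i _ j _ e => ?_)
      fun s hs => ?_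
    · have h1 := (hle (j + 1)).2 (Finset.mem_range.1 hj)
      have h2 := Multiset.card_le_card h1
      rw [card_Tm, ← he] at h2
      rw [Finset.mem_coe, Finset.mem_filter, Finset.mem_range, he]
      exact ⟨h2, (hper _).2 (dvd_mul_left _ _), h1⟩
    · have e' : (i + 1) * d = (j + 1) * d := by rw [← he i, ← he j]; exact congrArg (· + 1) e
      exact Nat.succ_injective (Nat.eq_of_mul_eq_mul_right hd e')
    · obtain ⟨-, h1, h2⟩ := Finset.mem_filter.1 hs
      obtain ⟨j, hj⟩ := (hper _).1 h1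
      rw [mul_comm] at hj
      rw [hj, hle] at h2
      obtain _ | j := j
      · omega
      · exact ⟨j, Finset.mem_range.2 h2, by simp only [← hj, Nat.add_sub_cancel]⟩
  · rw [Multiset.count_eq_zero_of_notMem hP, eq_comm, Finset.card_eq_zero,
      Finset.filter_eq_empty_iff]
    exact fun s _ h => hP (Multiset.mem_of_le h.2
      (Multiset.mem_map.2 ⟨0, Multiset.mem_range.2 s.succ_pos, rfl⟩))

open Classical in
theorem comb_shift (hfin : ∀ s, 0 < s → (Fx (σ ^ s)).Finite) {ω : Multiset Y → ℂ}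
    (hω : ∀ E E', E.map σ = E → E'.map σ = E' → ω (E + E') = ω E * ω E') {T : Multiset Y}
    (hT : T.map σ = T) (m : ℕ) :
    ∑ E ∈ (eff_finite hfin (m + T.card)).toFinset, (if T ≤ E then ω E else 0) =
      An σ ω m * ω T := by
  rw [An, finsum_mem_eq_finite_toFinset_sum _ (eff_finite hfin m), Finset.sum_mul,
    ← Finset.sum_filter, eq_comm]
  refine Finset.sum_nbij (fun E => E + T) (fun E hE => ?_) (fun E _ E' _ e => add_right_cancel e)
    (fun E hE => ?_) fun E hE => (hω _ _ ((Set.Finite.mem_toFinset _).1 hE).1 hT).symm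
  · have h := (Set.Finite.mem_toFinset _).1 hE
    refine Finset.mem_filter.2 ⟨(Set.Finite.mem_toFinset _).2 ⟨?_, ?_⟩, Multiset.le_add_left _ _⟩
    · rw [Multiset.map_add, h.1, hT]
    · rw [Multiset.card_add, h.2]
  · obtain ⟨h1, h2⟩ := Finset.mem_filter.1 hE
    obtain ⟨h3, h4⟩ := (Set.Finite.mem_toFinset _).1 h1
    obtain ⟨E', rfl⟩ := Multiset.le_iff_exists_add.1 h2
    rw [Multiset.map_add, hT] at h3
    rw [Multiset.card_add] at h4
    exact ⟨E', (Set.Finite.mem_toFinset _).2 ⟨add_left_cancel h3, by omega⟩, add_comm _ _⟩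

theorem an_rec (hfin : ∀ s, 0 < s → (Fx (σ ^ s)).Finite) {ω : Multiset Y → ℂ}
    (hω : ∀ E E', E.map σ = E → E'.map σ = E' → ω (E + E') = ω E * ω E') (n : ℕ) :
    ((n : ℂ) + 1) * An σ ω (n + 1) =
      ∑ ij ∈ Finset.HasAntidiagonal.antidiagonal n, An σ ω ij.1 * Ns σ ω (ij.2 + 1) := by
  classical
  rw [← Finset.Nat.sum_antidiagonal_swap, Finset.Nat.sum_antidiagonal_eq_sum_range_succ_mk, An,
    finsum_mem_eq_finite_toFinset_sum _ (eff_finite hfin (n + 1)), Finset.mul_sum]
  set X := (hfin _ (n + 1).factorial_pos).toFinset with hX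
  have h1 : ∀ E ∈ (eff_finite hfin (n + 1)).toFinset, ((n : ℂ) + 1) * ω E =
      ∑ s ∈ Finset.range (n + 1), ∑ P ∈ X,
        if (σ ^ (s + 1)) P = P then (if Tm σ (s + 1) P ≤ E then ω E else 0) else 0 := by
    intro E hE
    have h := (Set.Finite.mem_toFinset _).1 hE
    have e := Multiset.sum_count_eq_card (s := X) (m := E) fun P hP =>
      (Set.Finite.mem_toFinset _).2 (comb_mem h hP)
    rw [h.2] at e
    rw [← Nat.cast_succ, Nat.succ_eq_add_one, ← e, Nat.cast_sum, Finset.sum_mul, Finset.sum_comm]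
    refine Finset.sum_congr rfl fun P _ => ?_
    rw [comb_cnt h.1, h.2, Finset.card_filter, Nat.cast_sum, Finset.sum_mul, e]
    refine Finset.sum_congr rfl fun s _ => ?_
    by_cases a : (σ ^ (s + 1)) P = P <;> by_cases b : Tm σ (s + 1) P ≤ E <;> simp [a, b]
  rw [Finset.sum_congr rfl h1, Finset.sum_comm]
  refine Finset.sum_congr rfl fun s hs => ?_
  have hs' := Finset.mem_range.1 hs
  rw [Finset.sum_comm, Prod.fst_swap, Prod.snd_swap, Ns,
    finsum_mem_eq_finite_toFinset_sum _ (hfin _ s.succ_pos), Finset.mul_sum]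
  have e : (hfin _ s.succ_pos).toFinset = X.filter fun P => (σ ^ (s + 1)) P = P := by
    ext P
    rw [Finset.mem_filter, hX, Set.Finite.mem_toFinset, Set.Finite.mem_toFinset]
    exact ⟨fun h => ⟨comb_fact s.succ_pos hs' h, h⟩, fun h => h.2⟩
  rw [e, Finset.sum_filter]
  refine Finset.sum_congr rfl fun P _ => ?_
  split_ifs with a
  · have b := comb_shift hfin hω (Tm_fixed a) (n - s)
    have c : n - s + (Tm σ (s + 1) P).card = n + 1 := by rw [card_Tm]; omega
    simp only [c] at b
    exact b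
  · exact Finset.sum_const_zero

theorem an_LD (hfin : ∀ s, 0 < s → (Fx (σ ^ s)).Finite) {ω : Multiset Y → ℂ} (h0 : ω 0 = 1)
    (hω : ∀ E E', E.map σ = E → E'.map σ = E' → ω (E + E') = ω E * ω E') :
    LD (PowerSeries.mk (An σ ω)) fun s => Ns σ ω (s + 1) :=
  LD_of_rec (by rw [An, eff_zero, finsum_mem_singleton, h0]) (an_rec hfin hω)

end P019.Z
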