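import Mathlib

/-!
P019 Z/Defs: definitions for the zeta function part (complete, do not edit).
Effective divisors are multisets of points, `σ` is the Frobenius on points, `τ` on classes.
-/

namespace P019.Z

open PowerSeries

/-- `Z` has constant term one and logarithmic derivative `S` -/
def LD (Z : ℂ⟦X⟧) (S : ℕ → ℂ) : Prop :=
  constantCoeff Z = 1 ∧ d⁄dX ℂ Z = Z * PowerSeries.mk S

/-- power sums -/
noncomputable def ps (α : Multiset ℂ) (s : ℕ) : ℂ := (α.map fun a => a ^ s).sum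

/-- the product of the `1 - a ^ m` -/
noncomputable def pv (α : Multiset ℂ) (m : ℕ) : ℂ := (α.map fun a => 1 - a ^ m).prod

variable {Y J : Type*} [AddCommGroup J]

/-- fixed effective divisors of degree `n` -/
def Eff (σ : Equiv.Perm Y) (n : ℕ) : Set (Multiset Y) := {E | E.map σ = E ∧ E.card = n}

/-- fixed points -/
def Fx (σ : Equiv.Perm Y) : Set Y := {P | σ P = P}

/-- the first `s` images of `P` -/
def Tm (σ : Equiv.Perm Y) (s : ℕ) (P : Y) : Multiset Y :=
  (Multiset.range s).map fun i => (σ ^ i) P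

/-- weighted number of fixed effective divisors -/
noncomputable def An (σ : Equiv.Perm Y) (ω : Multiset Y → ℂ) (n : ℕ) : ℂ := ∑ᶠ E ∈ Eff σ n, ω E

/-- weighted number of points fixed by `σ ^ s` -/
noncomputable def Ns (σ : Equiv.Perm Y) (ω : Multiset Y → ℂ) (s : ℕ) : ℂ :=
  ∑ᶠ P ∈ Fx (σ ^ s), ω (Tm σ s P)

/-- fixed classes -/
def Fj (τ : Module.End ℤ J) : Set J := {c | τ c = c}

/-- the norm map -/
def Nm (τ : Module.End ℤ J) (n : ℕ) : Module.End ℤ J := ∑ i ∈ Finset.range n, τ ^ i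

/-- fixed effective divisors of degree `n` in the class `c` -/
def Ec (σ : Equiv.Perm Y) (p : Y → J) (n : ℕ) (c : J) : Set (Multiset Y) :=
  {E | E ∈ Eff σ n ∧ (E.map p).sum = c}

/-- zeta datum -/
structure Zd (σ : Equiv.Perm Y) (τ : Module.End ℤ J) (p : Y → J) (q g : ℕ) (w : J) : Prop where
  one_lt : 1 < q
  comm : ∀ P, p (σ P) = τ (p P)
  fin : ∀ s, 0 < s → (Fx (σ ^ s)).Finite
  fw : τ w = w
  big : ∀ n c, τ c = c → 2 * g ≤ n + 1 → (Ec σ p n c).ncard * (q - 1) + 1 = q ^ (n + 1 - g)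
  can : ∀ c, τ c = c → 1 ≤ g → c ≠ w →
    (Ec σ p (2 * g - 2) c).ncard * (q - 1) + 1 = q ^ (g - 1)
  can' : 1 ≤ g → (Ec σ p (2 * g - 2) w).ncard * (q - 1) + 1 = q ^ g

/-- action on divisors -/
noncomputable def sD (σ : Equiv.Perm Y) : (Y →₀ ℤ) →+ (Y →₀ ℤ) := Finsupp.mapDomain.addMonoidHom σ

/-- the divisor of a multiset of points -/
noncomputable def md (E : Multiset Y) : Y →₀ ℤ := (E.map fun P => Finsupp.single P (1 : ℤ)).sum

end P019.Z
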