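import Vale.Agent.P019.CvRR
import Vale.Agent.P019.Z.Defs

/-!
P019 Z/Frob: the Frobenius datum. Helper lemmas start with `frob_`.
Plan for exists_frob. `p = ringChar κ` is a prime (otherwise `2` is not a root of unity) and `p ≠ ℓ`.
`cv_root`, `cv_separating`, `cv_pdeg_eq` give `x` transcendental with `F` finite separable over
`K₀ = κ⟮x⟯`; `θ` a primitive element (`Field.exists_primitive_element`), `μ = minpoly K₀ θ`.
`φ = frobeniusEquiv κ p` extends to `Φ : K₀ ≃+* K₀` fixing `x` (`RatFunc.algEquivOfTranscendental`,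
`IsFractionRing.ringEquivOfRingEquiv`, `Polynomial.mapEquiv`; or `IsFractionRing.lift`). The elements
fixed by some positive power of `Φ` form a subfield (product of the periods) that contains `x` and the
constants (`c ^ p ^ i` runs through the finite set of powers of `c`, and the map is injective), so it is
everything (`IntermediateField.adjoin_induction`). Hence `Φ ^ s` fixes all coefficients of `μ`; lift with
`AdjoinRoot.lift` and `IntermediateField.adjoinRootEquivAdjoin` (or `PowerBasis`) to `ψ₀ : F →+* F`,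
`ψ₀ θ = θ`. Again every element is periodic, so `ψ₀` is bijective; `q = p ^ s`.
-/

namespace P019.Z

open IntermediateField

variable (κ : Type*) {F : Type*} [Field κ] [Field F] [Algebra κ F]

/-- Frobenius datum -/
structure Frob (ψ : RingAut F) (q : ℕ) : Prop where
  one_lt : 1 < q
  char : (q : κ) = 0
  const : ∀ c : κ, ψ (algebraMap κ F c) = algebraMap κ F (c ^ q)
  per : ∀ f, ∃ m, 0 < m ∧ (ψ ^ m) f = f

variable {κ}

theorem Frob.const_pow {ψ : RingAut F} {q : ℕ} (h : Frob κ ψ q) (m : ℕ) (c : κ) :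
    (ψ ^ m) (algebraMap κ F c) = algebraMap κ F (c ^ q ^ m) := by
  induction m with
  | zero => simp
  | succ m ih => rw [pow_succ', RingAut.mul_apply, ih, h.const, ← pow_mul, ← pow_succ]

theorem per_mul {ψ : RingAut F} {m : ℕ} {f : F} (h : (ψ ^ m) f = f) (k : ℕ) :
    (ψ ^ (m * k)) f = f := by
  induction k with
  | zero => simp
  | succ k ih => rw [Nat.mul_succ, pow_add, RingAut.mul_apply, h, ih]

theorem Frob.pow {ψ : RingAut F} {q : ℕ} (h : Frob κ ψ q) {m : ℕ} (hm : 0 < m) :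
    Frob κ (ψ ^ m) (q ^ m) := by
  refine ⟨Nat.one_lt_pow hm.ne' h.one_lt, by rw [Nat.cast_pow, h.char, zero_pow hm.ne'],
    h.const_pow m, fun f => ?_⟩
  obtain ⟨k, hk, e⟩ := h.per f
  exact ⟨k, hk, by rw [← pow_mul, mul_comm]; exact per_mul e m⟩

theorem frob_mul {E : Type*} [Field E] {ψ : E →+* E} {m : ℕ} {f : E} (h : (ψ ^ m) f = f) {n : ℕ}
    (hn : m ∣ n) : (ψ ^ n) f = f := by
  obtain ⟨k, rfl⟩ := hn
  induction k with
  | zero => simp
  | succ k ih =>
    rw [Nat.mul_succ, pow_add]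
    change (ψ ^ (m * k)) ((ψ ^ m) f) = f
    rw [h, ih]

/-- periodic elements -/
def frob_sub {E : Type*} [Field E] (ψ : E →+* E) : Subfield E where
  carrier := {a | ∃ m, 0 < m ∧ (ψ ^ m) a = a}
  mul_mem' := by
    rintro a b ⟨m, hm, ha⟩ ⟨n, hn, hb⟩
    exact ⟨m * n, Nat.mul_pos hm hn, by
      rw [map_mul, frob_mul ha (dvd_mul_right _ _), frob_mul hb (dvd_mul_left _ _)]⟩
  add_mem' := by
    rintro a b ⟨m, hm, ha⟩ ⟨n, hn, hb⟩
    exact ⟨m * n, Nat.mul_pos hm hn, by
      rw [map_add, frob_mul ha (dvd_mul_right _ _), frob_mul hb (dvd_mul_left _ _)]⟩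
  one_mem' := ⟨1, one_pos, map_one _⟩
  zero_mem' := ⟨1, one_pos, map_zero _⟩
  neg_mem' := by
    rintro a ⟨m, hm, ha⟩
    exact ⟨m, hm, by rw [map_neg, ha]⟩
  inv_mem' := by
    rintro a ⟨m, hm, ha⟩
    exact ⟨m, hm, by rw [map_inv₀, ha]⟩

theorem frob_const (hκ : LocFin κ) (p : ℕ) [Fact p.Prime] [CharP κ p] (c : κ) :
    ∃ d, 0 < d ∧ c ^ p ^ d = c := by
  by_cases hc : c = 0
  · exact ⟨1, one_pos, by rw [hc, pow_one, zero_pow (Fact.out : p.Prime).ne_zero]⟩
  have hf := (isOfFinOrder_iff_pow_eq_one.2 (hκ c hc)).finite_powers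
  obtain ⟨i, j, hij, e⟩ := hf.exists_lt_map_eq_of_forall_mem (f := fun i : ℕ => c ^ p ^ i)
    fun i => (Submonoid.mem_powers_iff _ _).2 ⟨p ^ i, rfl⟩
  obtain ⟨d, rfl⟩ := Nat.exists_eq_add_of_lt hij
  refine ⟨d + 1, Nat.succ_pos d, (iterateFrobenius κ p i).injective ?_⟩
  rw [iterateFrobenius_def, iterateFrobenius_def, ← pow_mul, ← pow_add, add_comm (d + 1),
    ← add_assoc]
  exact e.symm

theorem frob_base (hκ : LocFin κ) (p : ℕ) [Fact p.Prime] [CharP κ p] {x : F}
    (hx : Transcendental κ x) : ∃ Φ : κ⟮x⟯ →+* κ⟮x⟯,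
      (∀ m c, (Φ ^ m) (algebraMap κ _ c) = algebraMap κ _ (c ^ p ^ m)) ∧ ∀ a, a ∈ frob_sub Φ := by
  let e := RatFunc.algEquivOfTranscendental x hx
  let g : Polynomial κ →+* κ⟮x⟯ := ((e : RatFunc κ →+* κ⟮x⟯).comp (algebraMap _ _)).comp
    (Polynomial.mapRingHom (frobenius κ p))
  have hg : Function.Injective g :=
    (e.injective.comp (IsFractionRing.injective (Polynomial κ) (RatFunc κ))).comp
      (Polynomial.map_injective _ (frobenius κ p).injective)
  let Φ : κ⟮x⟯ →+* κ⟮x⟯ := (IsFractionRing.lift hg).comp (e.symm : κ⟮x⟯ →+* RatFunc κ)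
  have key : ∀ r : Polynomial κ,
      Φ (e (algebraMap _ _ r)) = e (algebraMap _ _ (r.map (frobenius κ p))) := fun r => by
    change IsFractionRing.lift hg (e.symm (e _)) = _
    rw [e.symm_apply_apply, IsFractionRing.lift_algebraMap]
    rfl
  have hC : ∀ c : κ, e (algebraMap _ _ (Polynomial.C c)) = algebraMap κ _ c := fun c =>
    e.commutes c
  have h1 : ∀ c, Φ (algebraMap κ _ c) = algebraMap κ _ (c ^ p) := fun c => by
    rw [← hC, key, Polynomial.map_C, hC, frobenius_def]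
  have h2 : ∀ m c, (Φ ^ m) (algebraMap κ _ c) = algebraMap κ _ (c ^ p ^ m) := fun m c => by
    induction m with
    | zero => simp
    | succ m ih =>
      rw [pow_succ']
      change Φ ((Φ ^ m) _) = _
      rw [ih, h1, ← pow_mul, ← pow_succ]
  have h3 : Φ (AdjoinSimple.gen κ x) = AdjoinSimple.gen κ x := by
    have := key Polynomial.X
    rwa [Polynomial.map_X, RatFunc.algEquivOfTranscendental_algebraMap, Polynomial.aeval_X] at this
  refine ⟨Φ, h2, fun ⟨a, ha⟩ => ?_⟩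
  induction ha using adjoin_induction with
  | mem y hy =>
    obtain rfl : y = x := hy
    exact ⟨1, one_pos, h3⟩
  | algebraMap c =>
    obtain ⟨d, hd, e⟩ := frob_const hκ p c
    exact ⟨d, hd, (h2 d c).trans (by rw [e]; rfl)⟩
  | add a b _ _ ha hb => exact add_mem ha hb
  | inv a _ ha => exact inv_mem ha
  | mul a b _ _ ha hb => exact mul_mem ha hb

theorem frob_lift {K : Type*} [Field K] [Algebra K F] (pb : PowerBasis K F) (Φ : K →+* K)
    (hΦ : ∀ a, a ∈ frob_sub Φ) : ∃ (s : ℕ) (ψ : F →+* F), 0 < s ∧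
      (∀ a, ψ (algebraMap K F a) = algebraMap K F ((Φ ^ s) a)) ∧ ∀ f, f ∈ frob_sub ψ := by
  choose m hm hma using hΦ
  let μ := minpoly K pb.gen
  let s := ∏ i ∈ μ.support, m (μ.coeff i)
  have hμ : μ.map (Φ ^ s) = μ := Polynomial.ext fun i => by
    rw [Polynomial.coeff_map]
    by_cases hi : i ∈ μ.support
    · exact frob_mul (hma _) (Finset.dvd_prod_of_mem (fun i => m (μ.coeff i)) hi)
    · rw [Polynomial.notMem_support_iff.1 hi, map_zero]
  have h0 : μ.eval₂ ((algebraMap K F).comp (Φ ^ s)) pb.gen = 0 := by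
    rw [← Polynomial.eval₂_map, hμ]
    exact minpoly.aeval K pb.gen
  let r : F →ₐ[K] AdjoinRoot μ := pb.lift (AdjoinRoot.root μ) (by
    rw [AdjoinRoot.aeval_eq, AdjoinRoot.mk_self])
  let ψ : F →+* F := (AdjoinRoot.lift _ pb.gen h0).comp (r : F →+* AdjoinRoot μ)
  have h1 : ∀ a, ψ (algebraMap K F a) = algebraMap K F ((Φ ^ s) a) := fun a => by
    change AdjoinRoot.lift _ pb.gen h0 (r _) = _
    rw [r.commutes, AdjoinRoot.algebraMap_eq, AdjoinRoot.lift_of]
    rfl
  have h2 : ψ pb.gen = pb.gen := by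
    change AdjoinRoot.lift _ pb.gen h0 (r _) = _
    rw [pb.lift_gen, AdjoinRoot.lift_root]
  have h3 : ∀ k a, (ψ ^ k) (algebraMap K F a) = algebraMap K F ((Φ ^ (s * k)) a) := fun k a => by
    induction k with
    | zero => simp
    | succ k ih =>
      rw [pow_succ', Nat.mul_succ, add_comm, pow_add]
      change ψ ((ψ ^ k) _) = algebraMap K F ((Φ ^ s) ((Φ ^ (s * k)) a))
      rw [ih, h1]
  refine ⟨s, ψ, Finset.prod_pos fun i _ => hm _, h1, fun f => ?_⟩
  have hf : f ∈ Algebra.adjoin K {pb.gen} := by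
    rw [pb.adjoin_gen_eq_top]
    trivial
  induction hf using Algebra.adjoin_induction with
  | mem y hy =>
    obtain rfl : y = pb.gen := hy
    exact ⟨1, one_pos, h2⟩
  | algebraMap a => exact ⟨m a, hm a, by rw [h3, frob_mul (hma a) (dvd_mul_left _ _)]⟩
  | add a b _ _ ha hb => exact add_mem ha hb
  | mul a b _ _ ha hb => exact mul_mem ha hb

theorem exists_frob [IsAlgClosed κ] {ℓ : ℕ} (hp : ℓ.Prime) (h : IsFF κ F 1) (hκ : LocFin κ)
    (hℓ : (ℓ : κ) ≠ 0) : ∃ (ψ : RingAut F) (q : ℕ), Frob κ ψ q ∧ q.Coprime ℓ := by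
  obtain ⟨p, hc⟩ := CharP.exists κ
  have hp' : p.Prime := by
    refine (CharP.char_is_prime_or_zero κ p).resolve_right ?_
    rintro rfl
    have := CharP.charP_to_charZero κ
    obtain ⟨n, hn, e⟩ := hκ 2 two_ne_zero
    have h1 : 2 ^ n = 1 := by exact_mod_cast e
    exact absurd h1 (Nat.one_lt_two_pow hn.ne').ne'
  have : Fact p.Prime := ⟨hp'⟩
  have hpl : p ≠ ℓ := by
    rintro rfl
    exact hℓ (CharP.cast_eq_zero κ p)
  obtain ⟨y, hy, -⟩ := id h
  obtain ⟨-, x, -, hx⟩ := cv_root h p (hy.transcendental 0)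
  obtain ⟨ht, hs⟩ := cv_separating h p hx
  have := cv_fin h ht
  obtain ⟨Φ, hΦ, hper⟩ := frob_base hκ p ht
  obtain ⟨s, ψ, hs0, h1, h2⟩ := frob_lift (Field.powerBasisOfFiniteOfSeparable κ⟮x⟯ F) Φ hper
  have hb : Function.Bijective ψ := ⟨ψ.injective, fun f => by
    obtain ⟨m, hm, e⟩ := h2 f
    obtain ⟨k, rfl⟩ := Nat.exists_eq_succ_of_ne_zero hm.ne'
    rw [pow_succ'] at e
    exact ⟨_, e⟩⟩
  let ψ' : RingAut F := RingEquiv.ofBijective ψ hb
  have h3 : ∀ m f, (ψ' ^ m) f = (ψ ^ m) f := fun m f => by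
    induction m with
    | zero => rfl
    | succ m ih =>
      rw [pow_succ', pow_succ', RingAut.mul_apply, ih]
      rfl
  refine ⟨ψ', p ^ s, ⟨Nat.one_lt_pow hs0.ne' hp'.one_lt,
    by rw [Nat.cast_pow, CharP.cast_eq_zero, zero_pow hs0.ne'], fun c => ?_, fun f => ?_⟩,
    ((Nat.coprime_primes hp' hp).2 hpl).pow_left s⟩
  · have := h1 (algebraMap κ _ c)
    rw [hΦ] at this
    exact this
  · obtain ⟨m, hm, e⟩ := h2 f
    exact ⟨m, hm, (h3 m f).trans e⟩

end P019.Z
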