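import Vale.Agent.P019.Z.Defs

/-!
P019 Z/Grp: group theory. Helper lemmas start with `grp_`.
Plan. exists_chi: `G = LinearMap.ker (τ - 1)` (finite), `H ≤ G` the image under `Nm τ n` of the
elements fixed by `τ ^ n` (`Nm_fixed`); `AddChar.exists_apply_ne_zero` on `G ⧸ H` gives `ψ` with
`ψ [c] ≠ 1`; `χ a = if h : τ a = a then ψ [a] else 0`; the sum vanishes since it is invariant under
multiplication by `χ c ≠ 1` (or `AddChar.sum_eq_zero_of_ne_one`).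
card_tors: for `φ = τ ^ (m₀ * k)` the kernel `K` of `Nm φ ℓ` on `Fj (φ ^ ℓ)` has `ℓ ^ r * u` elements
(the map onto `Fj φ` is surjective). A finite set `s` of elements killed by `ℓ` is fixed by some such
`φ` (product of the periods), `Nm φ ℓ y = ℓ • y = 0`, so `s` lies in `K ⊓ J[ℓ]`, whose order is a power
of `ℓ` dividing `ℓ ^ r * u`: `s.card ≤ ℓ ^ r`. So `J[ℓ]` is finite of order `≤ ℓ ^ r` and `J[ℓ ^ 2]` is
finite. Choose `φ` fixing `J[ℓ ^ 2]`. If `y ∈ K` and `ℓ ^ (e + 2) • y = 0` then `z = ℓ ^ e • y` is fixed,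
`ℓ • z = Nm φ ℓ z = 0`; so `ℓ ^ e • y = 0` implies `ℓ • y = 0`. A subgroup of `K` of order `ℓ ^ r`
(`Sylow.exists_subgroup_card_pow_prime` for `Multiplicative K`) lies in `J[ℓ]`.
-/

namespace P019.Z

variable {J : Type*} [AddCommGroup J] {τ : Module.End ℤ J}

theorem grp_Nm_apply (τ : Module.End ℤ J) (n : ℕ) (y : J) :
    Nm τ n y = ∑ i ∈ Finset.range n, (τ ^ i) y := by
  rw [Nm, LinearMap.sum_apply]

theorem grp_pow_fixed {y : J} (h : τ y = y) (i : ℕ) : (τ ^ i) y = y := by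
  induction i with
  | zero => rfl
  | succ i ih => rw [pow_succ, Module.End.mul_apply, h, ih]

theorem Nm_fixed {n : ℕ} {y : J} (h : (τ ^ n) y = y) : τ (Nm τ n y) = Nm τ n y := by
  have h1 := Finset.sum_range_succ (fun i => (τ ^ i) y) n
  have h2 := Finset.sum_range_succ' (fun i => (τ ^ i) y) n
  rw [h1, h, pow_zero, Module.End.one_apply, add_left_inj] at h2
  rw [grp_Nm_apply, map_sum, h2]
  refine Finset.sum_congr rfl fun i _ => ?_
  rw [pow_succ', Module.End.mul_apply]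

theorem Nm_of_fixed (n : ℕ) {y : J} (h : τ y = y) : Nm τ n y = n • y := by
  rw [grp_Nm_apply, Finset.sum_congr rfl fun i _ => grp_pow_fixed h i, Finset.sum_const,
    Finset.card_range]

theorem Nm_mul (n k : ℕ) (y : J) : Nm τ (n * k) y = Nm τ n (Nm (τ ^ n) k y) := by
  induction k with
  | zero => simp [Nm]
  | succ k ih =>
    rw [grp_Nm_apply (τ ^ n), Finset.sum_range_succ, ← grp_Nm_apply, map_add, ← ih, Nat.mul_succ,
      grp_Nm_apply, Finset.sum_range_add, ← grp_Nm_apply, grp_Nm_apply τ n]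
    congr 1
    refine Finset.sum_congr rfl fun i _ => ?_
    rw [add_comm, pow_add, Module.End.mul_apply, pow_mul]

/-- the fixed points as a subgroup -/
def grpFs (τ : Module.End ℤ J) : AddSubgroup J where
  carrier := Fj τ
  zero_mem' := map_zero τ
  add_mem' := fun {a b} ha hb => by
    change τ (a + b) = a + b
    rw [map_add, show τ a = a from ha, show τ b = b from hb]
  neg_mem' := fun {a} ha => by
    change τ (-a) = -a
    rw [map_neg, show τ a = a from ha]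

/-- the norm map between fixed points -/
def grpN (τ : Module.End ℤ J) (n : ℕ) : grpFs (τ ^ n) →+ grpFs τ where
  toFun y := ⟨Nm τ n y.1, Nm_fixed y.2⟩
  map_zero' := Subtype.ext (map_zero _)
  map_add' a b := Subtype.ext (map_add _ a.1 b.1)

theorem grp_period (per : ∀ y, ∃ m, 0 < m ∧ (τ ^ m) y = y) {s : Set J} (hs : s.Finite) (m₀ : ℕ) :
    ∃ k, 0 < k ∧ ∀ y ∈ s, (τ ^ (m₀ * k)) y = y := by
  choose m hm hm' using per
  refine ⟨∏ y ∈ hs.toFinset, m y, Finset.prod_pos fun y _ => hm y, fun y hy => ?_⟩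
  obtain ⟨d, hd⟩ := Finset.dvd_prod_of_mem m (hs.mem_toFinset.2 hy)
  rw [hd, mul_left_comm, pow_mul]
  exact grp_pow_fixed (hm' y) _

theorem grp_ker {n N : ℕ} (h1 : (Fj τ).Finite) (h2 : (Fj (τ ^ n)).Finite)
    (onto : ∀ c, τ c = c → ∃ y, (τ ^ n) y = y ∧ Nm τ n y = c)
    (hc : (Fj (τ ^ n)).ncard = (Fj τ).ncard * N) :
    ∃ K : AddSubgroup J, Finite K ∧ Nat.card K = N ∧
      ∀ y, y ∈ K ↔ (τ ^ n) y = y ∧ Nm τ n y = 0 := by
  have i1 : Finite (grpFs τ) := h1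
  have i2 : Finite (grpFs (τ ^ n)) := h2
  have hs : Function.Surjective (grpN τ n) := fun c => by
    obtain ⟨y, hy, hy'⟩ := onto c.1 c.2
    exact ⟨⟨y, hy⟩, Subtype.ext hy'⟩
  have e := AddSubgroup.card_eq_card_quotient_mul_card_addSubgroup (grpN τ n).ker
  rw [Nat.card_congr (QuotientAddGroup.quotientKerEquivOfSurjective _ hs).toEquiv] at e
  have e1 : Nat.card (grpFs (τ ^ n)) = Nat.card (grpFs τ) * N := hc
  have e2 : Nat.card (grpN τ n).ker = N :=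
    Nat.eq_of_mul_eq_mul_left Nat.card_pos (e.symm.trans e1)
  have q := (grpN τ n).ker.equivMapOfInjective (grpFs (τ ^ n)).subtype Subtype.val_injective
  refine ⟨(grpN τ n).ker.map (grpFs (τ ^ n)).subtype, Finite.of_equiv _ q.toEquiv,
    (Nat.card_congr q.toEquiv).symm.trans e2, fun y => ⟨?_, fun h => ?_⟩⟩
  · rintro ⟨z, hz, rfl⟩
    exact ⟨z.2, congrArg Subtype.val hz⟩
  · exact ⟨⟨y, h.1⟩, Subtype.ext h.2, rfl⟩

theorem exists_chi (hfin : (Fj τ).Finite) (n : ℕ) {c : J} (hc : τ c = c)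
    (hno : ¬ ∃ y, (τ ^ n) y = y ∧ Nm τ n y = c) :
    ∃ χ : J → ℂ, χ 0 = 1 ∧ (∀ a b, τ a = a → τ b = b → χ (a + b) = χ a * χ b) ∧
      ∑ᶠ a ∈ Fj τ, χ a = 0 ∧ ∀ y, (τ ^ n) y = y → χ (Nm τ n y) = 1 := by
  classical
  have : Finite (grpFs τ) := hfin
  have := Fintype.ofFinite (grpFs τ)
  let H : AddSubgroup (grpFs τ) := (grpN τ n).range
  have hc' : (QuotientAddGroup.mk ⟨c, hc⟩ : grpFs τ ⧸ H) ≠ 0 := by
    rw [Ne, QuotientAddGroup.eq_zero_iff]
    rintro ⟨y, hy⟩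
    exact hno ⟨y, y.2, congrArg Subtype.val hy⟩
  obtain ⟨ψ, hψ⟩ := AddChar.exists_apply_ne_zero.2 hc'
  let ψ' : AddChar (grpFs τ) ℂ := ψ.compAddMonoidHom (QuotientAddGroup.mk' H)
  have e : ∀ a : grpFs τ, (if h : τ a.1 = a.1 then ψ' ⟨a.1, h⟩ else 0) = ψ' a := fun a =>
    dif_pos a.2
  refine ⟨fun a => if h : τ a = a then ψ' ⟨a, h⟩ else 0, ?_, fun a b ha hb => ?_, ?_,
    fun y hy => ?_⟩
  · exact (e 0).trans ψ'.map_zero_eq_one
  · have h1 := e (⟨a, ha⟩ + ⟨b, hb⟩)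
    rw [ψ'.map_add_eq_mul, ← e ⟨a, ha⟩, ← e ⟨b, hb⟩] at h1
    exact h1
  · rw [← finsum_set_coe_eq_finsum_mem]
    have h1 : ∑ a, ψ' a = 0 := AddChar.sum_eq_zero_iff_ne_zero.2 fun h0 => hψ (by
      have := DFunLike.congr_fun h0 ⟨c, hc⟩
      exact this)
    rw [← finsum_eq_sum_of_fintype] at h1
    exact (finsum_congr e).trans h1
  · refine (e (grpN τ n ⟨y, hy⟩)).trans ?_
    have h1 : (QuotientAddGroup.mk' H (grpN τ n ⟨y, hy⟩)) = 0 :=
      (QuotientAddGroup.eq_zero_iff _).2 ⟨_, rfl⟩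
    change ψ (QuotientAddGroup.mk' H (grpN τ n ⟨y, hy⟩)) = 1
    rw [h1, ψ.map_zero_eq_one]

theorem card_tors {ℓ r m₀ : ℕ} (hℓ : ℓ.Prime) (hm₀ : 0 < m₀)
    (per : ∀ y, ∃ m, 0 < m ∧ (τ ^ m) y = y) (fin : ∀ m, 0 < m → (Fj (τ ^ m)).Finite)
    (onto : ∀ m, 0 < m → ∀ c, (τ ^ m) c = c → ∃ y, ((τ ^ m) ^ ℓ) y = y ∧ Nm (τ ^ m) ℓ y = c)
    (cnt : ∀ k, 0 < k → ∃ u, ¬ ℓ ∣ u ∧
      (Fj (τ ^ (m₀ * k * ℓ))).ncard = (Fj (τ ^ (m₀ * k))).ncard * ℓ ^ r * u) :
    {y : J | ℓ • y = 0}.Finite ∧ {y : J | ℓ • y = 0}.ncard = ℓ ^ r := by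
  classical
  have := Fact.mk hℓ
  have hA : ∀ s : Set J, s.Finite → ∃ (φ : Module.End ℤ J) (u : ℕ) (K : AddSubgroup J),
      (∀ y ∈ s, φ y = y) ∧ ¬ ℓ ∣ u ∧ Finite K ∧ Nat.card K = ℓ ^ r * u ∧
        ∀ y, y ∈ K ↔ (φ ^ ℓ) y = y ∧ Nm φ ℓ y = 0 := by
    intro s hs
    obtain ⟨k, hk, hfix⟩ := grp_period per hs m₀
    obtain ⟨u, hu, hcnt⟩ := cnt k hk
    have hm := Nat.mul_pos hm₀ hk
    rw [pow_mul τ (m₀ * k) ℓ, mul_assoc] at hcnt
    obtain ⟨K, h1, h2, h3⟩ := grp_ker (fin _ hm)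
      (by rw [← pow_mul]; exact fin _ (Nat.mul_pos hm hℓ.pos)) (onto _ hm) hcnt
    exact ⟨_, u, K, hfix, hu, h1, h2, h3⟩
  have hC : ∀ s : Finset J, (s : Set J) ⊆ {y : J | ℓ • y = 0} → s.card ≤ ℓ ^ r := by
    intro s hs
    obtain ⟨φ, u, K, hfix, hu, h1, h2, h3⟩ := hA s s.finite_toSet
    let T : AddSubgroup J := K ⊓ (nsmulAddMonoidHom ℓ).ker
    have hT : Finite T := Finite.of_injective _ (AddSubgroup.inclusion_injective inf_le_left)
    have hp : IsPGroup ℓ (Multiplicative T) := fun g => ⟨1, by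
      rw [pow_one]
      exact Subtype.ext (show ℓ • (Multiplicative.toAdd g).1 = 0 from (Multiplicative.toAdd g).2.2)⟩
    obtain ⟨j, hj⟩ := IsPGroup.iff_card.1 hp
    have hj' : Nat.card T = ℓ ^ j := hj
    have hd : ℓ ^ j ∣ ℓ ^ r * u := hj' ▸ h2 ▸ AddSubgroup.card_dvd_of_le inf_le_left
    have hd' : ℓ ^ j ∣ ℓ ^ r :=
      (Nat.Coprime.pow_left j (hℓ.coprime_iff_not_dvd.2 hu)).dvd_of_dvd_mul_right hd
    refine le_trans ?_ (Nat.le_of_dvd (pow_pos hℓ.pos r) hd')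
    rw [← hj', ← Set.ncard_coe_finset]
    refine Set.ncard_le_ncard (t := (T : Set J)) (fun y hy => ⟨(h3 y).2 ⟨?_, ?_⟩, hs hy⟩) hT
    · exact grp_pow_fixed (hfix y hy) ℓ
    · rw [Nm_of_fixed ℓ (hfix y hy)]
      exact hs hy
  have hF : {y : J | ℓ • y = 0}.Finite := by
    by_contra hinf
    obtain ⟨s, hs, hcard⟩ := Set.Infinite.exists_subset_card_eq hinf (ℓ ^ r + 1)
    have := hC s hs
    omega
  refine ⟨hF, le_antisymm ?_ ?_⟩
  · rw [Set.ncard_eq_toFinset_card _ hF]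
    exact hC _ (by simp)
  have hF2 : {y : J | ℓ • ℓ • y = 0}.Finite := by
    refine Set.Finite.of_finite_fibers (fun y => ℓ • y) (hF.subset ?_) ?_
    · rintro _ ⟨y, hy, rfl⟩
      exact hy
    · rintro _ ⟨y, -, rfl⟩
      refine (hF.image fun z => y + z).subset fun z hz => ⟨z - y, ?_, by simp⟩
      have h1 : ℓ • z = ℓ • y := hz.2
      change ℓ • (z - y) = 0
      rw [nsmul_sub, h1, sub_self]
  obtain ⟨φ, u, K, hfix, -, h1, h2, h3⟩ := hA _ hF2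
  have key : ∀ y ∈ K, ∀ e : ℕ, ℓ ^ (e + 1) • y = 0 → ℓ • y = 0 := by
    intro y hy e
    induction e with
    | zero => intro h; simpa using h
    | succ e ih =>
      intro h
      refine ih ?_
      have h4 : φ (ℓ ^ e • y) = ℓ ^ e • y := hfix _ (by
        change ℓ • ℓ • ℓ ^ e • y = 0
        rw [← h, smul_smul, smul_smul]
        congr 1
        ring)
      rw [pow_succ', mul_smul, ← Nm_of_fixed ℓ h4, map_nsmul, ((h3 y).1 hy).2, smul_zero]
  obtain ⟨Q, hQ⟩ := Sylow.exists_subgroup_card_pow_prime (G := Multiplicative K) ℓ (n := r)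
    ⟨u, h2⟩
  rw [← hQ, ← Nat.card_coe_set_eq]
  have : Finite {y : J | ℓ • y = 0} := hF
  refine Nat.card_le_card_of_injective (fun x : Q =>
    (⟨(Multiplicative.toAdd x.1).1, key _ (Multiplicative.toAdd x.1).2 r ?_⟩ :
      {y : J | ℓ • y = 0})) fun x x' h => ?_
  · have h4 : x ^ ℓ ^ r = 1 := by rw [← hQ]; exact pow_card_eq_one'
    have h5 : ℓ ^ r • (Multiplicative.toAdd x.1).1 = 0 :=
      congrArg (fun z : Q => (Multiplicative.toAdd z.1).1) h4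
    rw [pow_succ', mul_smul, h5, smul_zero]
  · have h' : (Multiplicative.toAdd x.1).1 = (Multiplicative.toAdd x'.1).1 :=
      congrArg (fun z : {y : J | ℓ • y = 0} => z.1) h
    exact Subtype.ext (Multiplicative.toAdd.injective (Subtype.ext h'))

end P019.Z
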