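import Vale.Agent.P019.Z.Ser

/-!
P019 Z/Poly: the numerator of the zeta function. Helper lemmas start with `poly_`.
Plan. Put `U n = A n - q A (n - 1)` (`U 0 = A 0`), the coefficients of `(1 - q X) Z`, and
`L n = U n - U (n - 1)` (`L 0 = U 0`), the coefficients of `(1 - X) (1 - q X) Z`; all are integers.
Cancel `q - 1 ≠ 0`: `U n = h` for `n ≥ 2 g` when `n - 1 ≥ 2 g - 1` (for `g = 0`: `U 0 = A 0 = h = 1`),
and `U (2 g - 1) = h - q ^ g` for `g ≥ 1`. So `L n = 0` for `n > 2 g`, `L (2 g) = q ^ g`, `L 0 = 1`,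
`∑ n ≤ 2 g, L n = U (2 g) = h`. Let `L₀ : ℤ[X] = ∑ n ∈ range (2 g + 1), monomial n (L n)` and
`L = L₀.map`; `(L : ℂ⟦X⟧) = (1 - C 1 * X) * (1 - C q * X) * mk A`. Take `α` from exists_fac with
`d = 2 g`. LD.mul, LD_lin, LD_poly, unique_S give the power sums. `reflect (2 g) L₀` is monic
(`Polynomial.reflect_map`) with the roots `α`, its value at `0` is `L (2 g) = ∏ (-a)`, and
`L.eval 1 = pv α 1`.
-/

namespace P019.Z

open PowerSeries

/-- coefficients of `(1 - c X) f` -/
def polyD (c : ℤ) (f : ℕ → ℤ) : ℕ → ℤ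
  | 0 => f 0
  | n + 1 => f (n + 1) - c * f n

theorem poly_mk (c : ℤ) (f : ℕ → ℤ) : (PowerSeries.mk fun n => (polyD c f n : ℂ)) =
    (1 - C (c : ℂ) * X) * PowerSeries.mk fun n => (f n : ℂ) := by
  rw [sub_mul, one_mul, mul_assoc]
  ext n
  rcases n with _ | n
  · simp [polyD]
  · rw [map_sub, coeff_C_mul, coeff_succ_X_mul]
    simp [polyD]

theorem poly_sum (f : ℕ → ℤ) (n : ℕ) : ∑ i ∈ Finset.range (n + 1), polyD 1 f i = f n := by
  induction n with
  | zero => simp [polyD]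
  | succ n ih => rw [Finset.sum_range_succ, ih, polyD]; ring

theorem poly_big {A : ℕ → ℕ} {q g h : ℕ} (hq : 1 < q) (h0 : A 0 = 1)
    (h1 : ∀ n, 2 * g ≤ n + 1 → A n * (q - 1) + h = h * q ^ (n + 1 - g)) (n : ℕ)
    (hn : 2 * g ≤ n) : polyD q (fun n => A n) n = h := by
  have hq0 : (q : ℤ) - 1 ≠ 0 := by omega
  refine mul_right_cancel₀ hq0 ?_
  rcases n with _ | n
  · have a := h1 0 (by omega)
    rw [show 0 + 1 - g = 1 by omega, h0] at a
    zify [hq.le] at a
    simp only [polyD, h0]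
    push_cast
    linarith
  · have a := h1 n hn
    have b := h1 (n + 1) (by omega)
    rw [show n + 1 + 1 - g = n + 1 - g + 1 by omega, pow_succ] at b
    zify [hq.le] at a b
    simp only [polyD]
    linear_combination b - q * a

theorem poly_can {A : ℕ → ℕ} {q g h : ℕ} (hq : 1 < q)
    (h1 : ∀ n, 2 * (g + 1) ≤ n + 1 → A n * (q - 1) + h = h * q ^ (n + 1 - (g + 1)))
    (h2 : A (2 * g) * (q - 1) + h + q ^ g = h * q ^ g + q ^ (g + 1)) :
    polyD q (fun n => A n) (2 * g + 1) = h - q ^ (g + 1) := by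
  have hq0 : (q : ℤ) - 1 ≠ 0 := by omega
  refine mul_right_cancel₀ hq0 ?_
  have b := h1 (2 * g + 1) (by omega)
  rw [show 2 * g + 1 + 1 - (g + 1) = g + 1 by omega] at b
  zify [hq.le] at h2 b
  simp only [polyD]
  linear_combination b - q * h2

theorem exists_alpha {A : ℕ → ℕ} {S : ℕ → ℂ} {q g h : ℕ} (hq : 1 < q)
    (hL : LD (PowerSeries.mk fun n => (A n : ℂ)) S)
    (h1 : ∀ n, 2 * g ≤ n + 1 → A n * (q - 1) + h = h * q ^ (n + 1 - g))
    (h2 : 1 ≤ g → A (2 * g - 2) * (q - 1) + h + q ^ (g - 1) = h * q ^ (g - 1) + q ^ g) :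
    ∃ α : Multiset ℂ, α.card = 2 * g ∧ (∀ a ∈ α, IsIntegral ℤ a) ∧ α.prod = (q : ℂ) ^ g ∧
      pv α 1 = h ∧ ∀ s, S s = 1 + (q : ℂ) ^ (s + 1) - ps α (s + 1) := by
  have h0 : A 0 = 1 := by
    have := hL.1
    rw [← coeff_zero_eq_constantCoeff_apply, coeff_mk] at this
    exact_mod_cast this
  have hU := poly_big hq h0 h1
  set U := polyD q fun n => A n with hUd
  have l0 : polyD 1 U 0 = 1 := by simp [hUd, polyD, h0]
  have l1 : ∀ n, 2 * g < n → polyD 1 U n = 0 := fun n hn => by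
    obtain ⟨m, rfl⟩ : ∃ m, n = m + 1 := ⟨n - 1, by omega⟩
    rw [polyD, hU _ (by omega), hU _ (by omega)]
    ring
  have l2 : polyD 1 U (2 * g) = q ^ g := by
    rcases g with _ | g
    · simpa using l0
    · have a := poly_can hq h1 (by
        have := h2 (by omega)
        rwa [show 2 * (g + 1) - 2 = 2 * g by omega, Nat.add_sub_cancel] at this)
      rw [show 2 * (g + 1) = 2 * g + 1 + 1 by ring, polyD, hU _ (by omega), hUd, a]
      ring
  let L₀ : Polynomial ℤ := trunc (2 * g + 1) (PowerSeries.mk (polyD 1 U))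
  have c0 : ∀ n, L₀.coeff n = polyD 1 U n := fun n => by
    rw [coeff_trunc, coeff_mk]
    split_ifs with hn
    · rfl
    · exact (l1 n (by omega)).symm
  have d0 : L₀.natDegree ≤ 2 * g := Nat.lt_succ_iff.1 (natDegree_trunc_lt _ _)
  obtain ⟨α, hc, e1, e2⟩ := exists_fac (L₀.map (Int.castRingHom ℂ))
    (by rw [Polynomial.coeff_map, c0, l0, map_one]) (Polynomial.natDegree_map_le.trans d0)
  have hm : (L₀.reflect (2 * g)).Monic :=
    Polynomial.monic_of_natDegree_le_of_coeff_eq_one (2 * g)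
      (Polynomial.natDegree_reflect_le.trans (max_le le_rfl d0))
      (by rw [Polynomial.coeff_reflect, Polynomial.revAt_le le_rfl, Nat.sub_self, c0, l0])
  refine ⟨α, hc, fun a ha => ⟨_, hm, ?_⟩, ?_, ?_, fun s => ?_⟩
  · rw [Polynomial.eval₂_eq_eval_map, algebraMap_int_eq, ← Polynomial.reflect_map, e2,
      Polynomial.eval_multiset_prod, Multiset.map_map]
    exact Multiset.prod_eq_zero (Multiset.mem_map.2 ⟨a, ha, by simp⟩)
  · have a := congrArg (Polynomial.eval 0) e2
    rw [← Polynomial.coeff_zero_eq_eval_zero, Polynomial.coeff_reflect,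
      Polynomial.revAt_le (Nat.zero_le _), Nat.sub_zero, Polynomial.coeff_map, c0, l2,
      Polynomial.eval_multiset_prod, Multiset.map_map] at a
    simp only [Function.comp, Polynomial.eval_sub, Polynomial.eval_X, Polynomial.eval_C,
      zero_sub] at a
    rw [Multiset.prod_map_neg, hc, pow_mul, neg_one_sq, one_pow, one_mul] at a
    simpa using a.symm
  · have a := congrArg (Polynomial.eval 1) e1
    rw [Polynomial.eval_one_map, Polynomial.eval_eq_sum_range' (Nat.lt_succ_of_le d0)] at a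
    simp only [c0, one_pow, mul_one, poly_sum, hU _ le_rfl] at a
    simpa [pv, Polynomial.eval_multiset_prod] using a.symm
  · have a := (LD_lin ((1 : ℤ) : ℂ)).mul ((LD_lin ((q : ℤ) : ℂ)).mul hL)
    have b : (PowerSeries.mk fun n => (A n : ℂ)) =
        PowerSeries.mk fun n => (((A n : ℕ) : ℤ) : ℂ) := by simp
    have e : ((L₀.map (Int.castRingHom ℂ) : Polynomial ℂ) : ℂ⟦X⟧) =
        PowerSeries.mk fun n => (polyD 1 U n : ℂ) := by
      ext n
      simp [c0]
    rw [b, ← poly_mk, ← poly_mk, ← e, e1, ser_coe] at a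
    have c := congrFun (a.unique_S (LD_prod α)) s
    simp only [Int.cast_one, one_pow, Int.cast_natCast] at c
    linear_combination c

end P019.Z
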