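import Vale.Agent.P019.Z.Defs

/-!
P019 Z/Ser: logarithmic derivatives of power series. Helper lemmas start with `ser_`.
Plan. mul: Leibniz rule (`Derivation.leibniz`). unique: strong induction on coefficients,
`coeff_derivative`, `coeff_mul` (the coefficient `n` of `Z * mk S` only uses coefficients `≤ n` of `Z`).
unique_S: `Z ≠ 0`, cancel. LD_lin: compare coefficients, `(1 - a X) * mk (-a ^ (s + 1)) = -C a`.
LD_prod: `Multiset.induction_on`. pv_eq: by LD_prod and unique the two products agree as power
series, so as polynomials (`Polynomial.coe_injective`, `Polynomial.coeToPowerSeries.ringHom`,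
`map_multiset_prod`); evaluate at `1`.
exists_fac: `R = reflect d L` is monic of degree `d`, `α = R.roots`
(`prod_multiset_X_sub_C_of_monic_of_roots_card_eq`, `IsAlgClosed.splits`); apply `reflect` again
(`reflect_mul`, induction on the multiset: `reflect (card α) (∏ (X - C a)) = ∏ (1 - C a * X)`).
exists_ps: `L = PowerSeries.trunc d (mk A)`, exists_fac, LD_prod, unique_S.
-/

namespace P019.Z

open PowerSeries

theorem ser_coe (α : Multiset ℂ) :
    (((α.map fun a => 1 - Polynomial.C a * Polynomial.X).prod : Polynomial ℂ) : ℂ⟦X⟧) =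
      (α.map fun a => (1 - C a * X : ℂ⟦X⟧)).prod := by
  induction α using Multiset.induction_on with
  | empty => simp
  | cons a α ih =>
    rw [Multiset.map_cons, Multiset.prod_cons, Multiset.map_cons, Multiset.prod_cons,
      Polynomial.coe_mul, ih]
    simp

theorem ser_refl (α : Multiset ℂ) :
    ((α.map fun a => Polynomial.X - Polynomial.C a).prod).reflect α.card =
      (α.map fun a => 1 - Polynomial.C a * Polynomial.X).prod := by
  induction α using Multiset.induction_on with
  | empty => simp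
  | cons a α ih =>
    rw [Multiset.map_cons, Multiset.prod_cons, Multiset.map_cons, Multiset.prod_cons,
      Multiset.card_cons, add_comm, Polynomial.reflect_mul _ _ (Polynomial.natDegree_X_sub_C_le a)
        (Polynomial.natDegree_multiset_prod_X_sub_C_eq_card α).le, ih]
    simp

theorem LD.mul {Z Z' : ℂ⟦X⟧} {S S' : ℕ → ℂ} (h : LD Z S) (h' : LD Z' S') :
    LD (Z * Z') fun s => S s + S' s := by
  refine ⟨by rw [map_mul, h.1, h'.1, mul_one], ?_⟩
  have e : (PowerSeries.mk fun s => S s + S' s) = PowerSeries.mk S + PowerSeries.mk S' := by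
    ext n
    simp only [coeff_mk, map_add]
  rw [Derivation.leibniz, h.2, h'.2, e, smul_eq_mul, smul_eq_mul]
  ring

theorem LD.unique {Z Z' : ℂ⟦X⟧} {S : ℕ → ℂ} (h : LD Z S) (h' : LD Z' S) : Z = Z' := by
  ext n
  induction n using Nat.strong_induction_on with
  | _ n ih =>
    rcases n with _ | n
    · rw [coeff_zero_eq_constantCoeff_apply, coeff_zero_eq_constantCoeff_apply, h.1, h'.1]
    · have h1 := congrArg (coeff n) h.2
      have h2 := congrArg (coeff n) h'.2
      rw [coeff_derivative, coeff_mul] at h1 h2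
      refine mul_right_cancel₀ (Nat.cast_add_one_ne_zero n) (h1.trans (Eq.trans ?_ h2.symm))
      refine Finset.sum_congr rfl fun ij hij => ?_
      rw [ih ij.1 (Nat.lt_succ_of_le (Finset.HasAntidiagonal.antidiagonal.fst_le hij))]

theorem LD.unique_S {Z : ℂ⟦X⟧} {S S' : ℕ → ℂ} (h : LD Z S) (h' : LD Z S') : S = S' := by
  have h0 : Z ≠ 0 := fun e => by simpa [e] using h.1
  have h1 := mul_left_cancel₀ h0 (h.2.symm.trans h'.2)
  funext n
  simpa only [coeff_mk] using congrArg (coeff n) h1

theorem LD_lin (a : ℂ) : LD (1 - C a * X) fun s => -a ^ (s + 1) := by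
  refine ⟨by simp, ?_⟩
  rw [map_sub, Derivation.leibniz, derivative_X, derivative_C, Derivation.map_one_eq_zero, sub_mul,
    one_mul, mul_assoc]
  ext n
  rcases n with _ | n
  · simp
  · simp [coeff_succ_X_mul, coeff_C, pow_succ']

theorem LD_prod (α : Multiset ℂ) :
    LD (α.map fun a => (1 - C a * X : ℂ⟦X⟧)).prod fun s => -ps α (s + 1) := by
  induction α using Multiset.induction_on with
  | empty =>
    refine ⟨by simp, ?_⟩
    ext n
    simp [ps]
  | cons a α ih =>
    have := (LD_lin a).mul ih
    simpa only [Multiset.map_cons, Multiset.prod_cons, ps, Multiset.sum_cons, neg_add] using this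

theorem LD_of_rec {A S : ℕ → ℂ} (h0 : A 0 = 1)
    (h : ∀ n : ℕ, ((n : ℂ) + 1) * A (n + 1) =
      ∑ ij ∈ Finset.HasAntidiagonal.antidiagonal n, A ij.1 * S ij.2) :
    LD (PowerSeries.mk A) S := by
  refine ⟨by rw [← coeff_zero_eq_constantCoeff_apply, coeff_mk, h0], ?_⟩
  ext n
  rw [coeff_derivative, coeff_mul, mul_comm]
  simpa only [coeff_mk] using h n

theorem pv_eq {α β : Multiset ℂ} (h : ∀ s, ps α (s + 1) = ps β (s + 1)) : pv α 1 = pv β 1 := by
  have h1 := LD_prod α
  simp only [h] at h1
  have h2 := h1.unique (LD_prod β)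
  rw [← ser_coe, ← ser_coe] at h2
  have h3 := congrArg (Polynomial.eval 1) (Polynomial.coe_injective ℂ h2)
  simpa [pv, Polynomial.eval_multiset_prod] using h3

theorem exists_fac (L : Polynomial ℂ) (h0 : L.coeff 0 = 1) {d : ℕ} (hd : L.natDegree ≤ d) :
    ∃ α : Multiset ℂ, α.card = d ∧
      L = (α.map fun a => 1 - Polynomial.C a * Polynomial.X).prod ∧
      L.reflect d = (α.map fun a => Polynomial.X - Polynomial.C a).prod := by
  have hc : (L.reflect d).coeff d = 1 := by
    rw [Polynomial.coeff_reflect, Polynomial.revAt_le le_rfl, Nat.sub_self, h0]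
  have hn : (L.reflect d).natDegree ≤ d :=
    Polynomial.natDegree_reflect_le.trans (max_le le_rfl hd)
  have hm : (L.reflect d).Monic := Polynomial.monic_of_natDegree_le_of_coeff_eq_one d hn hc
  have hdeg : (L.reflect d).natDegree = d :=
    Polynomial.natDegree_eq_of_le_of_coeff_ne_zero hn (hc ▸ one_ne_zero)
  have hcard : (L.reflect d).roots.card = d := IsAlgClosed.card_roots_eq_natDegree.trans hdeg
  have he := (Polynomial.prod_multiset_X_sub_C_of_monic_of_roots_card_eq hm
    (hcard.trans hdeg.symm)).symm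
  refine ⟨_, hcard, ?_, he⟩
  rw [← ser_refl, hcard, ← he, Polynomial.reflect_reflect]

theorem LD_poly {L : Polynomial ℂ} {α : Multiset ℂ}
    (h : L = (α.map fun a => 1 - Polynomial.C a * Polynomial.X).prod) :
    LD (L : ℂ⟦X⟧) fun s => -ps α (s + 1) := by
  rw [h, ser_coe]
  exact LD_prod α

theorem exists_ps {A S : ℕ → ℂ} (h : LD (PowerSeries.mk A) S) {d : ℕ} (hd : ∀ n, d ≤ n → A n = 0) :
    ∃ β : Multiset ℂ, ∀ s, S s = -ps β (s + 1) := by
  have h0 : A 0 = 1 := by
    rw [← h.1, ← coeff_zero_eq_constantCoeff_apply, coeff_mk]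
  have e : ((trunc (d + 1) (PowerSeries.mk A) : Polynomial ℂ) : ℂ⟦X⟧) = PowerSeries.mk A := by
    ext n
    rw [Polynomial.coeff_coe, coeff_trunc]
    split_ifs with hn
    · rfl
    · rw [coeff_mk, hd n (by omega)]
  obtain ⟨β, -, h1, -⟩ := exists_fac (trunc (d + 1) (PowerSeries.mk A))
    (by rw [coeff_trunc, if_pos (Nat.succ_pos d), coeff_mk, h0]) le_rfl
  have h2 := LD_poly h1
  rw [e] at h2
  exact ⟨β, fun s => congrFun (h.unique_S h2) s⟩

end P019.Z
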