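import Vale.Agent.P019.Z.Comb
import Vale.Agent.P019.Z.Poly
import Vale.Agent.P019.Z.Grp

/-!
P019 Z/ZetaA: zeta and L-functions of a zeta datum. Helper lemmas start with `zetaa_`.
Plan. fix_sum: `τ` of the sum is the sum over `E.map σ` (`map_multiset_sum`, `Multiset.map_map`).
fin_Fj: for `n = 2 g` every fixed class has a member of `Ec` (else `1 = q ^ (g + 1)`), so `Fj τ` lies in
the image of the finite set `Eff σ n`. an_eq: sum over the fibres of `E ↦ (E.map p).sum`
(`Finset.sum_fiberwise_of_maps_to`, `finsum_mem_eq_finite_toFinset_sum`, `Set.ncard_eq_toFinset_card`).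
alpha: `exists_alpha` with `A n = (Eff σ n).ncard = ∑ c ∈ Fj τ, (Ec σ p n c).ncard`, `h = (Fj τ).ncard`,
`an_LD` for `ω = 1` (`An σ 1 n = A n` by `finsum_one`/`finsum_mem_const`); sum `big`, `can`, `can'` over
the classes (split off `w` with `Finset.add_sum_erase`).
beta: `an_LD` for `ω E = χ ((E.map p).sum)`; for `n ≥ 2 g` the number `(Ec σ p n c).ncard` does not
depend on `c` (cancel `q - 1`), so `An = 0` by an_eq; `exists_ps`.
sum_Tm: `p ((σ ^ i) P) = (τ ^ i) (p P)` by induction, `Finset.sum` is a `Multiset.sum`.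
-/

namespace P019.Z

variable {Y J : Type*} [AddCommGroup J] {σ : Equiv.Perm Y} {τ : Module.End ℤ J} {p : Y → J}
  {q g : ℕ} {w : J}

theorem Zd.fix_sum (h : Zd σ τ p q g w) {E : Multiset Y} (hE : E.map σ = E) :
    τ (E.map p).sum = (E.map p).sum := by
  rw [map_multiset_sum, Multiset.map_map]
  conv_rhs => rw [← hE, Multiset.map_map]
  exact congrArg Multiset.sum (Multiset.map_congr rfl fun P _ => (h.comm P).symm)

theorem Zd.comm_pow (h : Zd σ τ p q g w) (i : ℕ) (P : Y) : p ((σ ^ i) P) = (τ ^ i) (p P) := by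
  induction i with
  | zero => rfl
  | succ i ih => rw [pow_succ', pow_succ', Equiv.Perm.mul_apply, h.comm, ih, Module.End.mul_apply]

theorem Zd.sum_Tm (h : Zd σ τ p q g w) (s : ℕ) (P : Y) :
    ((Tm σ s P).map p).sum = Nm τ s (p P) := by
  rw [Tm, Nm, Multiset.map_map, LinearMap.sum_apply, Finset.sum_eq_multiset_sum, Finset.range_val]
  exact congrArg Multiset.sum (Multiset.map_congr rfl fun i _ => h.comm_pow i P)

theorem Zd.fin_Fj (h : Zd σ τ p q g w) : (Fj τ).Finite := by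
  refine ((eff_finite h.fin (2 * g)).image fun E => (E.map p).sum).subset fun c hc => ?_
  have h1 := h.big (2 * g) c hc (by omega)
  have h2 : (Ec σ p (2 * g) c).ncard ≠ 0 := by
    intro h0
    rw [h0, zero_mul, zero_add] at h1
    have h3 := Nat.one_lt_pow (n := 2 * g + 1 - g) (by omega) h.one_lt
    omega
  obtain ⟨E, hE⟩ := Set.nonempty_of_ncard_ne_zero h2
  exact ⟨E, hE.1, hE.2⟩

theorem zetaa_eq (h : Zd σ τ p q g w) (χ : J → ℂ) (n : ℕ) :
    An σ (fun E => χ (E.map p).sum) n =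
      ∑ c ∈ h.fin_Fj.toFinset, ((Ec σ p n c).ncard : ℂ) * χ c := by
  classical
  have hf := eff_finite h.fin n
  rw [An, finsum_mem_eq_finite_toFinset_sum _ hf,
    ← Finset.sum_fiberwise_of_maps_to (t := h.fin_Fj.toFinset) (g := fun E => (E.map p).sum)]
  · refine Finset.sum_congr rfl fun c _ => ?_
    have e : Ec σ p n c = (hf.toFinset.filter fun E => (E.map p).sum = c : Finset _) := by
      ext E
      simp [Ec]
    rw [e, Set.ncard_coe_finset, ← nsmul_eq_mul, ← Finset.sum_const]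
    exact Finset.sum_congr rfl fun E hE => by rw [(Finset.mem_filter.1 hE).2]
  · intro E hE
    exact h.fin_Fj.mem_toFinset.2 (h.fix_sum (hf.mem_toFinset.1 hE).1)

theorem Zd.an_eq (h : Zd σ τ p q g w) (χ : J → ℂ) (n : ℕ) :
    An σ (fun E => χ (E.map p).sum) n = ∑ᶠ c ∈ Fj τ, ((Ec σ p n c).ncard : ℂ) * χ c := by
  rw [zetaa_eq h, finsum_mem_eq_finite_toFinset_sum _ h.fin_Fj]

theorem Zd.alpha (h : Zd σ τ p q g w) :
    ∃ α : Multiset ℂ, α.card = 2 * g ∧ (∀ a ∈ α, IsIntegral ℤ a) ∧ α.prod = (q : ℂ) ^ g ∧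
      pv α 1 = (Fj τ).ncard ∧
      ∀ s, Ns σ (fun _ => 1) (s + 1) = 1 + (q : ℂ) ^ (s + 1) - ps α (s + 1) := by
  classical
  have hL := an_LD h.fin (ω := fun _ => 1) rfl fun _ _ _ _ => (one_mul _).symm
  have e : An σ (fun _ => 1) =
      fun n => ((∑ c ∈ h.fin_Fj.toFinset, (Ec σ p n c).ncard : ℕ) : ℂ) := by
    funext n
    have h1 := zetaa_eq h (fun _ => 1) n
    simp only [mul_one] at h1
    rw [Nat.cast_sum]
    exact h1
  rw [e] at hL
  rw [Set.ncard_eq_toFinset_card _ h.fin_Fj]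
  refine exists_alpha h.one_lt hL (fun n hn => ?_) fun hg => ?_
  · rw [Finset.sum_mul, Finset.card_eq_sum_ones, ← Finset.sum_add_distrib, Finset.sum_mul]
    exact Finset.sum_congr rfl fun c hc => by
      rw [h.big n c (h.fin_Fj.mem_toFinset.1 hc) hn, one_mul]
  · have hw : w ∈ h.fin_Fj.toFinset := h.fin_Fj.mem_toFinset.2 h.fw
    rw [Finset.sum_mul, Finset.card_eq_sum_ones, ← Finset.sum_add_distrib, Finset.sum_mul,
      ← Finset.add_sum_erase _ _ hw, ← Finset.add_sum_erase _ _ hw, h.can' hg]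
    have e2 : ∑ c ∈ h.fin_Fj.toFinset.erase w, ((Ec σ p (2 * g - 2) c).ncard * (q - 1) + 1) =
        ∑ c ∈ h.fin_Fj.toFinset.erase w, 1 * q ^ (g - 1) :=
      Finset.sum_congr rfl fun c hc => by
        rw [h.can c (h.fin_Fj.mem_toFinset.1 (Finset.mem_of_mem_erase hc)) hg
          (Finset.ne_of_mem_erase hc), one_mul]
    rw [e2]
    ring

theorem Zd.beta (h : Zd σ τ p q g w) {χ : J → ℂ} (h0 : χ 0 = 1)
    (hm : ∀ a b, τ a = a → τ b = b → χ (a + b) = χ a * χ b) (hs : ∑ᶠ a ∈ Fj τ, χ a = 0) :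
    ∃ β : Multiset ℂ, ∀ s, Ns σ (fun E => χ (E.map p).sum) (s + 1) = -ps β (s + 1) := by
  have hL := an_LD h.fin (ω := fun E => χ (E.map p).sum) (by simpa using h0) fun E E' hE hE' => by
    rw [Multiset.map_add, Multiset.sum_add]
    exact hm _ _ (h.fix_sum hE) (h.fix_sum hE')
  refine exists_ps hL (d := 2 * g) fun n hn => ?_
  rw [finsum_mem_eq_finite_toFinset_sum _ h.fin_Fj] at hs
  have e : ∀ c ∈ h.fin_Fj.toFinset, ((Ec σ p n c).ncard : ℂ) * χ c =
      ((Ec σ p n w).ncard : ℂ) * χ c := by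
    intro c hc
    have h1 := h.big n c (h.fin_Fj.mem_toFinset.1 hc) (by omega)
    have h2 := h.big n w h.fw (by omega)
    have h3 : 0 < q - 1 := by have := h.one_lt; omega
    rw [Nat.eq_of_mul_eq_mul_right h3 (Nat.add_right_cancel (h1.trans h2.symm))]
  rw [zetaa_eq h, Finset.sum_congr rfl e, ← Finset.mul_sum, hs, mul_zero]

end P019.Z
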